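import Vale.Agent.P078.NP.PosFun
import Vale.Agent.P078.VN.Threshold

/-!
# P078: the normal part of an `A`-central positive functional is `A`-central
-/

namespace Vale.Agent.P078

open scoped InnerProductSpace

variable {H : Type*} [NormedAddCommGroup H] [InnerProductSpace ℂ H] [CompleteSpace H]
variable {M A : StarSubalgebra ℂ (H →L[ℂ] H)} {ψ φ : (H →L[ℂ] H) →L[ℂ] ℂ}

/-
PROOF SKETCH (subtask).  If `φ (e * m) = φ (m * e)` for all projections `e ∈ A` then the same holds for simple elements (`IsSimple`, finite linear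
combinations of projections of `A`), and then for every `a ∈ A` by `(hA.hasThresholds hM).approx_simple` and continuity of `φ`:
`‖φ (a m) - φ (m a)‖ = ‖φ ((a - s) m) - φ (m (a - s))‖ ≤ 2 ‖φ‖ ‖m‖ ‖a - s‖`.  (Compare the end of `IsMASA.exists_cluster` in VN/Cluster.lean.)
-/
lemma isCentralOn_of_proj (hM : IsVN M) (hA : IsMASA M A)
    (h : ∀ e ∈ A, IsStarProjection e → ∀ m ∈ M, φ (e * m) = φ (m * e)) : IsCentralOn M A φ := by
  intro a ha m hm
  have hs : ∀ s, IsSimple A s → φ (s * m) = φ (m * s) := by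
    intro s hs
    obtain ⟨I, _, e, c, he, rfl⟩ := hs
    rw [Finset.sum_mul, Finset.mul_sum, map_sum, map_sum]
    apply Finset.sum_congr rfl
    intro i _
    rw [smul_mul_assoc, mul_smul_comm, map_smul, map_smul, h (e i) (he.mem i) (he.proj i) m hm]
  have hbound : ∀ κ : ℝ, 0 < κ → ‖φ (a * m) - φ (m * a)‖ ≤ 2 * ‖φ‖ * ‖m‖ * κ := by
    intro κ hκ
    obtain ⟨s, hsimp, hsn⟩ := (hA.hasThresholds hM).approx_simple ha hκ
    have e1 : φ (a * m) - φ (m * a) = φ ((a - s) * m) - φ (m * (a - s)) := by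
      rw [sub_mul, mul_sub, map_sub, map_sub, hs s hsimp]
      ring
    rw [e1]
    have b1 : ‖φ ((a - s) * m)‖ ≤ ‖φ‖ * (κ * ‖m‖) :=
      (φ.le_opNorm _).trans (mul_le_mul_of_nonneg_left
        ((norm_mul_le _ _).trans (mul_le_mul_of_nonneg_right hsn (norm_nonneg _))) (norm_nonneg _))
    have b2 : ‖φ (m * (a - s))‖ ≤ ‖φ‖ * (‖m‖ * κ) :=
      (φ.le_opNorm _).trans (mul_le_mul_of_nonneg_left
        ((norm_mul_le _ _).trans (mul_le_mul_of_nonneg_left hsn (norm_nonneg _))) (norm_nonneg _))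
    calc ‖φ ((a - s) * m) - φ (m * (a - s))‖ ≤ ‖φ ((a - s) * m)‖ + ‖φ (m * (a - s))‖ :=
          norm_sub_le _ _
      _ ≤ ‖φ‖ * (κ * ‖m‖) + ‖φ‖ * (‖m‖ * κ) := add_le_add b1 b2
      _ = 2 * ‖φ‖ * ‖m‖ * κ := by ring
  have hK : 0 ≤ 2 * ‖φ‖ * ‖m‖ := by positivity
  have hz : ‖φ (a * m) - φ (m * a)‖ ≤ 0 := by
    apply le_of_forall_pos_le_add
    intro ε hε
    have h1 := hbound (ε / (2 * ‖φ‖ * ‖m‖ + 1)) (by positivity)
    have h2 : 2 * ‖φ‖ * ‖m‖ * (ε / (2 * ‖φ‖ * ‖m‖ + 1)) ≤ ε := by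
      rw [mul_div_assoc', div_le_iff₀ (by positivity)]
      nlinarith
    linarith
  exact sub_eq_zero.mp (norm_le_zero_iff.mp hz)

lemma symm_star {e : H →L[ℂ] H} (hep : IsStarProjection e) :
    star ((2 : ℂ) • e - 1) = (2 : ℂ) • e - 1 := by
  rw [star_sub, star_smul, star_one, hep.isSelfAdjoint.star_eq]
  congr 2
  exact Complex.conj_ofReal 2

lemma symm_mul_self {e : H →L[ℂ] H} (hep : IsStarProjection e) :
    ((2 : ℂ) • e - 1) * ((2 : ℂ) • e - 1) = 1 := by
  have hee : e * e = e := hep.isIdempotentElem.eq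
  rw [sub_mul, mul_sub, smul_mul_smul_comm, hee, mul_one, one_mul]
  have : ((2 : ℂ) * 2) • e = (2 : ℂ) • e + (2 : ℂ) • e := by
    rw [← add_smul]; norm_num
  rw [this]
  abel

lemma symm_norm_le {e : H →L[ℂ] H} (hep : IsStarProjection e) : ‖(2 : ℂ) • e - 1‖ ≤ 1 := by
  have h1 := CStarRing.norm_star_mul_self (x := (2 : ℂ) • e - 1)
  rw [symm_star hep, symm_mul_self hep] at h1
  have h2 : ‖(1 : H →L[ℂ] H)‖ ≤ 1 := ContinuousLinearMap.norm_id_le
  nlinarith [norm_nonneg ((2 : ℂ) • e - 1)]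

/-- invariance under conjugation on positive elements of `M` extends to all of `M` -/
lemma conj_invariant_of_pos {u : H →L[ℂ] H}
    (hpos : ∀ y ∈ M, 0 ≤ y → φ (u * y * u) = φ y) : ∀ m ∈ M, φ (u * m * u) = φ m := by
  have hsa : ∀ y ∈ M, IsSelfAdjoint y → φ (u * y * u) = φ y := by
    intro y hy hysa
    have hQM : ‖y‖ • (1 : H →L[ℂ] H) ∈ M := by
      rw [← Complex.coe_smul]
      exact M.smul_mem (one_mem M) _
    have hQ0 : 0 ≤ ‖y‖ • (1 : H →L[ℂ] H) := smul_nonneg (norm_nonneg y) zero_le_one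
    have hP0 : 0 ≤ y + ‖y‖ • (1 : H →L[ℂ] H) := by
      have := hysa.neg_algebraMap_norm_le_self
      rw [Algebra.algebraMap_eq_smul_one] at this
      exact neg_le_iff_add_nonneg.mp this
    have h1 := hpos _ (add_mem hy hQM) hP0
    have h2 := hpos _ hQM hQ0
    rw [mul_add, add_mul, map_add, map_add, h2] at h1
    exact add_right_cancel h1
  intro m hm
  have hre : ((realPart m : selfAdjoint (H →L[ℂ] H)) : H →L[ℂ] H) ∈ M := by
    rw [realPart_apply_coe]
    exact M.smul_mem (add_mem hm (star_mem hm)) _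
  have him : ((imaginaryPart m : selfAdjoint (H →L[ℂ] H)) : H →L[ℂ] H) ∈ M := by
    rw [imaginaryPart_apply_coe]
    exact M.smul_mem (M.smul_mem (sub_mem hm (star_mem hm)) _) _
  have hT := realPart_add_I_smul_imaginaryPart m
  rw [← hT, mul_add, add_mul, mul_smul_comm, smul_mul_assoc, map_add, map_add, map_smul,
    map_smul, hsa _ hre (realPart m).2, hsa _ him (imaginaryPart m).2]

lemma comm_of_conj_invariant {e : H →L[ℂ] H} (heM : e ∈ M) (hep : IsStarProjection e)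
    (hinv : ∀ m ∈ M, φ (((2 : ℂ) • e - 1) * m * ((2 : ℂ) • e - 1)) = φ m) :
    ∀ m ∈ M, φ (e * m) = φ (m * e) := by
  intro m hm
  have huu := symm_mul_self hep
  have huM : (2 : ℂ) • e - 1 ∈ M := sub_mem (M.smul_mem heM _) (one_mem M)
  set u : H →L[ℂ] H := (2 : ℂ) • e - 1 with hu
  have h3 : φ (u * m) = φ (m * u) := by
    have h4 := hinv (m * u) (mul_mem hm huM)
    have h5 : u * (m * u) * u = u * m := by
      calc u * (m * u) * u = u * m * (u * u) := by simp only [mul_assoc]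
        _ = u * m := by rw [huu, mul_one]
    rwa [h5] at h4
  rw [hu, sub_mul, mul_sub, smul_mul_assoc, mul_smul_comm, one_mul, mul_one, map_sub, map_sub,
    map_smul, map_smul] at h3
  have h6 : (2 : ℂ) • φ (e * m) = (2 : ℂ) • φ (m * e) := sub_left_injective h3
  exact smul_right_injective ℂ (two_ne_zero) h6

lemma compFun_normal_of_contraction {u : H →L[ℂ] H} (huM : u ∈ M) (hun : ‖u‖ ≤ 1)
    (hφn : IsNormalOn M φ) : IsNormalOn M (compFun φ u u) := by
  classical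
  intro ε hε
  obtain ⟨F, δ, hδ, hF⟩ := hφn ε hε
  refine ⟨F.image u, δ, hδ, ?_⟩
  intro m hm hmn hmF
  rw [compFun_apply]
  apply hF _ (mul_mem (mul_mem huM hm) huM)
  · calc ‖u * m * u‖ ≤ ‖u * m‖ * ‖u‖ := norm_mul_le _ _
      _ ≤ (‖u‖ * ‖m‖) * ‖u‖ := by gcongr; exact norm_mul_le _ _
      _ ≤ (1 * 1) * 1 := by gcongr
      _ = 1 := by norm_num
  · intro ζ hζ
    have h1 := hmF (u ζ) (Finset.mem_image_of_mem u hζ)
    calc ‖(u * m * u) ζ‖ = ‖u (m (u ζ))‖ := rfl
      _ ≤ ‖u‖ * ‖m (u ζ)‖ := u.le_opNorm _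
      _ ≤ 1 * ‖m (u ζ)‖ := by gcongr
      _ = ‖m (u ζ)‖ := one_mul _
      _ < δ := h1

/-
PROOF SKETCH (subtask).  By `isCentralOn_of_proj` it is enough to treat a projection `e ∈ A`.  Let `u := 2 e - 1 ∈ A`: `star u = u`, `u * u = 1`, `‖u‖ ≤ 1`.
`θ := compFun φ u u`.
* `θ` is normal on `M`: for `m` in the unit ball of `M`, `u m u` is in the unit ball of `M` and `‖(u m u) ζ‖ ≤ ‖m (u ζ)‖`; use `F.image u`.
* `θ ≤ ψ` on positive `y ∈ M`: `u y u ∈ M` is positive, `(φ (u y u)).re ≤ (ψ (u y u)).re` by `h1`, and `ψ (u * (y * u)) = ψ ((y * u) * u) = ψ y` by `hψc`.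
* By `h2`: `(φ (u y u)).re ≤ (φ y).re` for all positive `y ∈ M`; applying this to `u y u` gives equality; imaginary parts vanish (`hφ`).
  So `φ (u y u) = φ y` for positive `y ∈ M`.
* Every `m ∈ M` is a linear combination of positive elements of `M`: `m = Re m + i Im m`, and a self-adjoint `y ∈ M` is `(y + ‖y‖ 1) - ‖y‖ 1`.
  So `φ (u m u) = φ m` for all `m ∈ M`; replacing `m` by `m * u`: `φ (u * m) = φ (m * u)`, hence `φ (e * m) = φ (m * e)`.
-/
theorem normal_part_central (hM : IsVN M) (hA : IsMASA M A) (hψc : IsCentralOn M A ψ)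
    (hφ : IsPosFunctional φ) (hφn : IsNormalOn M φ)
    (h1 : ∀ y ∈ M, 0 ≤ y → (φ y).re ≤ (ψ y).re)
    (h2 : ∀ θ : (H →L[ℂ] H) →L[ℂ] ℂ, IsNormalOn M θ → (∀ y ∈ M, 0 ≤ y → (θ y).re ≤ (ψ y).re) →
      ∀ y ∈ M, 0 ≤ y → (θ y).re ≤ (φ y).re) :
    IsCentralOn M A φ := by
  apply isCentralOn_of_proj hM hA
  intro e he hep
  have heM : e ∈ M := hA.le he
  apply comm_of_conj_invariant heM hep
  apply conj_invariant_of_pos
  have huu := symm_mul_self hep
  have hus := symm_star hep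
  have hun := symm_norm_le hep
  have huA : (2 : ℂ) • e - 1 ∈ A := sub_mem (A.smul_mem he _) (one_mem A)
  have huM : (2 : ℂ) • e - 1 ∈ M := hA.le huA
  set u : H →L[ℂ] H := (2 : ℂ) • e - 1 with hu
  have husa : IsSelfAdjoint u := hus
  have hθn : IsNormalOn M (compFun φ u u) := compFun_normal_of_contraction huM hun hφn
  have hconjM : ∀ y ∈ M, u * y * u ∈ M := fun y hy => mul_mem (mul_mem huM hy) huM
  have hconj0 : ∀ y : H →L[ℂ] H, 0 ≤ y → 0 ≤ u * y * u :=
    fun y hy => IsSelfAdjoint.conjugate_nonneg hy husa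
  have hθle : ∀ y ∈ M, 0 ≤ y → (compFun φ u u y).re ≤ (ψ y).re := by
    intro y hy hy0
    rw [compFun_apply]
    have a1 := h1 _ (hconjM y hy) (hconj0 y hy0)
    have a2 : ψ (u * y * u) = ψ y := by
      rw [mul_assoc, hψc u huA (y * u) (mul_mem hy huM), mul_assoc, huu, mul_one]
    rwa [a2] at a1
  have hle : ∀ y ∈ M, 0 ≤ y → (φ (u * y * u)).re ≤ (φ y).re := by
    intro y hy hy0
    have := h2 _ hθn hθle y hy hy0
    rwa [compFun_apply] at this
  intro y hy hy0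
  have b1 := hle y hy hy0
  have b2 := hle _ (hconjM y hy) (hconj0 y hy0)
  have e1 : u * (u * y * u) * u = y := by
    calc u * (u * y * u) * u = (u * u) * y * (u * u) := by simp only [mul_assoc]
      _ = y := by rw [huu, one_mul, mul_one]
  rw [e1] at b2
  apply Complex.ext
  · exact le_antisymm b1 b2
  · rw [(hφ _ (hconj0 y hy0)).2, (hφ _ hy0).2]

end Vale.Agent.P078
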