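import Vale.Agent.P078.NP.Limit

/-!
# P078: the limit functional is the largest normal minorant of `ψ`
-/

namespace Vale.Agent.P078

open scoped InnerProductSpace
open Filter Topology

variable {H : Type*} [NormedAddCommGroup H] [InnerProductSpace ℂ H] [CompleteSpace H]
variable {M : StarSubalgebra ℂ (H →L[ℂ] H)} {ψ : (H →L[ℂ] H) →L[ℂ] ℂ}
variable {J : Type*} {p : J → (H →L[ℂ] H)} {η : J → H}

namespace IsGoodFamily

/-
PROOF SKETCH (subtask).  Fix `ε`.  Write `E = pSum p Λ`, `g = 1 - E`.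
Step 1: by `exists_tail_small` pick `Λ₀` with `(ψ (pSum p Λ - pSum p Λ₀)).re < ε₁` for `Λ ⊇ Λ₀`.  Cauchy-Schwarz gives
`‖ψ (g * y * (E - E₀))‖^2 ≤ (ψ (g y y g)).re (ψ (E - E₀)).re ≤ ‖y‖^2 (ψ 1).re ε₁`.
Step 2: `ψ (g * y * E₀) = ∑ j ∈ Λ₀, ψ (1 * (g * y) * p j)` and `IsGood.bound` with `b₀ := 1`, `m := g * y ∈ M`:
`‖ψ (g y p j)‖^2 ≤ (ψ 1).re ‖g (y (p j (η j)))‖^2`, which is small for `Λ` large by `h.conv` applied to the finitely many vectors
`y (p j (η j))`, `j ∈ Λ₀` (take the union of the finitely many finsets, `Finset.biUnion` or induction).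
-/
lemma cross_small [DecidableEq J] (h : IsGoodFamily M ψ p η) (hψ : IsPosFunctional ψ)
    {y : H →L[ℂ] H} (hy : y ∈ M) {ε : ℝ} (hε : 0 < ε) :
    ∃ Λ₁ : Finset J, ∀ Λ : Finset J, Λ₁ ⊆ Λ → ‖ψ ((1 - pSum p Λ) * y * pSum p Λ)‖ < ε := by
  set c : ℝ := (ψ 1).re with hc
  have hc0 : 0 ≤ c := (hψ 1 zero_le_one).1
  set Y : ℝ := ‖y‖ with hY
  have hY0 : 0 ≤ Y := norm_nonneg _
  -- Step 1
  set ε₁ : ℝ := (ε / 2) ^ 2 / (c * Y ^ 2 + 1) with hε₁
  have hden : 0 < c * Y ^ 2 + 1 := by positivity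
  have hε₁pos : 0 < ε₁ := by positivity
  obtain ⟨Λ₀, hΛ₀⟩ := h.exists_tail_small hψ hε₁pos
  -- Step 2
  set n : ℝ := (Λ₀.card : ℝ) with hn
  have hn0 : 0 ≤ n := Nat.cast_nonneg _
  set δ : ℝ := ε / (2 * (n + 1) * (c + 1)) with hδ
  have hδpos : 0 < δ := by positivity
  choose L hL using fun j : J => h.conv (y (p j (η j))) δ hδpos
  refine ⟨Λ₀ ∪ Λ₀.biUnion L, fun Λ hΛ => ?_⟩
  have hΛ₀Λ : Λ₀ ⊆ Λ := Finset.union_subset_left hΛ
  have hLΛ : ∀ j ∈ Λ₀, L j ⊆ Λ := fun j hj =>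
    (Finset.subset_biUnion_of_mem L hj).trans (Finset.union_subset_right hΛ)
  set E := pSum p Λ with hE
  set E₀ := pSum p Λ₀ with hE₀
  have hEp : IsStarProjection E := h.pSum_proj Λ
  have hgp : IsStarProjection (1 - E) := hEp.one_sub
  have hgn : ‖1 - E‖ ≤ 1 := hgp.norm_le
  have hgM : 1 - E ∈ M := sub_mem (one_mem M) (h.pSum_mem Λ)
  have hGp : IsStarProjection (E - E₀) := h.pSum_sub_proj hΛ₀Λ
  -- first term
  have hT1 : ‖ψ ((1 - E) * y * (E - E₀))‖ < ε / 2 := by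
    have hcs := hψ.cauchy_schwarz (E - E₀) (star y * (1 - E))
    have e1 : star (star y * (1 - E)) * (E - E₀) = (1 - E) * y * (E - E₀) := by
      rw [star_mul, star_star, hgp.isSelfAdjoint.star_eq]
    have e2 : star (E - E₀) * (E - E₀) = E - E₀ := by
      rw [hGp.isSelfAdjoint.star_eq, hGp.isIdempotentElem.eq]
    rw [e1, e2] at hcs
    have h1 : (ψ (E - E₀)).re < ε₁ := hΛ₀ Λ₀ Λ (Finset.Subset.refl _) hΛ₀Λ
    have h1' : 0 ≤ (ψ (E - E₀)).re := (hψ _ hGp.nonneg).1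
    have h2 : (ψ (star (star y * (1 - E)) * (star y * (1 - E)))).re ≤ c * Y ^ 2 := by
      have h3 := hψ.norm_le (star (star y * (1 - E)) * (star y * (1 - E)))
      have h4 : ‖star (star y * (1 - E)) * (star y * (1 - E))‖ ≤ Y ^ 2 := by
        have h5 : ‖star y * (1 - E)‖ ≤ Y := by
          calc ‖star y * (1 - E)‖ ≤ ‖star y‖ * ‖1 - E‖ := norm_mul_le _ _
            _ ≤ Y * 1 := by rw [norm_star]; gcongr
            _ = Y := mul_one _
        calc ‖star (star y * (1 - E)) * (star y * (1 - E))‖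
            ≤ ‖star (star y * (1 - E))‖ * ‖star y * (1 - E)‖ := norm_mul_le _ _
          _ ≤ Y * Y := by rw [norm_star]; gcongr
          _ = Y ^ 2 := by ring
      calc (ψ (star (star y * (1 - E)) * (star y * (1 - E)))).re
          ≤ ‖ψ (star (star y * (1 - E)) * (star y * (1 - E)))‖ := Complex.re_le_norm _
        _ ≤ c * ‖star (star y * (1 - E)) * (star y * (1 - E))‖ := h3
        _ ≤ c * Y ^ 2 := by gcongr
    have h6 : ‖ψ ((1 - E) * y * (E - E₀))‖ ^ 2 < (ε / 2) ^ 2 := by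
      calc ‖ψ ((1 - E) * y * (E - E₀))‖ ^ 2
          ≤ (ψ (E - E₀)).re * (ψ (star (star y * (1 - E)) * (star y * (1 - E)))).re := hcs
        _ ≤ (ψ (E - E₀)).re * (c * Y ^ 2) := by gcongr
        _ ≤ ε₁ * (c * Y ^ 2) := by gcongr
        _ < ε₁ * (c * Y ^ 2 + 1) := by
            apply mul_lt_mul_of_pos_left _ hε₁pos
            linarith
        _ = (ε / 2) ^ 2 := by rw [hε₁]; field_simp
    exact (pow_lt_pow_iff_left₀ (norm_nonneg _) (by positivity) two_ne_zero).mp h6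
  -- second term
  have hT2j : ∀ j ∈ Λ₀, ‖ψ ((1 - E) * y * p j)‖ ≤ ε / (2 * (n + 1)) := by
    intro j hj
    have hb := (h.good j).bound hψ 1 (mul_mem hgM hy)
    rw [one_mul, star_one, one_mul] at hb
    have h1 : ‖((1 - E) * y) (p j (η j))‖ < δ := by
      have := hL j Λ (hLΛ j hj)
      exact this
    have h2 : ‖ψ ((1 - E) * y * p j)‖ ^ 2 ≤ (ε / (2 * (n + 1))) ^ 2 := by
      calc ‖ψ ((1 - E) * y * p j)‖ ^ 2 ≤ c * ‖((1 - E) * y) (p j (η j))‖ ^ 2 := hb
        _ ≤ c * δ ^ 2 := by gcongr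
        _ ≤ (c + 1) ^ 2 * δ ^ 2 := by
            apply mul_le_mul_of_nonneg_right _ (by positivity)
            nlinarith
        _ = (ε / (2 * (n + 1))) ^ 2 := by rw [hδ]; field_simp
    exact (pow_le_pow_iff_left₀ (norm_nonneg _) (by positivity) two_ne_zero).mp h2
  have hT2 : ‖ψ ((1 - E) * y * E₀)‖ < ε / 2 := by
    have e1 : ψ ((1 - E) * y * E₀) = ∑ j ∈ Λ₀, ψ ((1 - E) * y * p j) := by
      rw [hE₀, pSum, Finset.mul_sum, map_sum]
    rw [e1]
    calc ‖∑ j ∈ Λ₀, ψ ((1 - E) * y * p j)‖ ≤ ∑ j ∈ Λ₀, ‖ψ ((1 - E) * y * p j)‖ :=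
          norm_sum_le _ _
      _ ≤ ∑ _j ∈ Λ₀, ε / (2 * (n + 1)) := Finset.sum_le_sum hT2j
      _ = n * (ε / (2 * (n + 1))) := by rw [Finset.sum_const, nsmul_eq_mul]
      _ < ε / 2 := by
          have : n * (ε / (2 * (n + 1))) = (ε / 2) * (n / (n + 1)) := by field_simp
          rw [this]
          have h3 : n / (n + 1) < 1 := by
            rw [div_lt_one (by positivity)]
            linarith
          have : (ε / 2) * (n / (n + 1)) < (ε / 2) * 1 :=
            mul_lt_mul_of_pos_left h3 (by positivity)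
          linarith
  have esplit : (1 - E) * y * E = (1 - E) * y * (E - E₀) + (1 - E) * y * E₀ := by
    rw [← mul_add, sub_add_cancel]
  rw [esplit, map_add]
  calc ‖ψ ((1 - E) * y * (E - E₀)) + ψ ((1 - E) * y * E₀)‖
      ≤ ‖ψ ((1 - E) * y * (E - E₀))‖ + ‖ψ ((1 - E) * y * E₀)‖ := norm_add_le _ _
    _ < ε := by linarith

/-
PROOF SKETCH (subtask).  For `y ≥ 0`, `E = pSum p Λ`, `g = 1 - E`:  `y = E y E + E y g + g y E + g y g`, `(ψ (g y g)).re ≥ 0`,
`ψ (E y g) = conj (ψ (g y E))` (`IsPosFunctional.map_star`), so `(ψ (E y E)).re ≤ (ψ y).re + 2 ‖ψ (g y E)‖`.  Use `cross_small` and pass to the limit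
(`le_of_tendsto'`-style: `(φ y).re = lim (ψ (E y E)).re`, and eventually `(ψ (E y E)).re ≤ (ψ y).re + 2 ε`).
-/
lemma limit_le [DecidableEq J] (h : IsGoodFamily M ψ p η) (hψ : IsPosFunctional ψ)
    {φ : (H →L[ℂ] H) →L[ℂ] ℂ}
    (hlim : Tendsto (fun Λ : Finset J => compFun ψ (pSum p Λ) (pSum p Λ)) atTop (𝓝 φ)) :
    ∀ y ∈ M, 0 ≤ y → (φ y).re ≤ (ψ y).re := by
  intro y hy hy0
  have hysa : star y = y := (IsSelfAdjoint.of_nonneg hy0).star_eq
  have hlim' : Tendsto (fun Λ : Finset J => (ψ (pSum p Λ * y * pSum p Λ)).re) atTop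
      (𝓝 (φ y).re) := by
    have h1 : Tendsto (fun Λ : Finset J => (compFun ψ (pSum p Λ) (pSum p Λ)) y) atTop
        (𝓝 (φ y)) :=
      ((ContinuousLinearMap.apply ℂ ℂ y).continuous.tendsto φ).comp hlim
    exact (Complex.continuous_re.tendsto _).comp h1
  refine le_of_forall_pos_le_add fun ε hε => ?_
  obtain ⟨Λ₁, hΛ₁⟩ := h.cross_small hψ hy (half_pos hε)
  refine le_of_tendsto hlim' ?_
  filter_upwards [Filter.eventually_ge_atTop Λ₁] with Λ hΛ
  have hcross := hΛ₁ Λ hΛ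
  set E := pSum p Λ with hE
  have hEp : IsStarProjection E := h.pSum_proj Λ
  have hgp : IsStarProjection (1 - E) := hEp.one_sub
  have esplit : y = E * y * E + E * y * (1 - E) + (1 - E) * y * E + (1 - E) * y * (1 - E) := by
    noncomm_ring
  have h1 : 0 ≤ (ψ ((1 - E) * y * (1 - E))).re := by
    have := star_left_conjugate_nonneg hy0 (1 - E)
    rw [hgp.isSelfAdjoint.star_eq] at this
    exact (hψ _ this).1
  have h2 : (ψ (E * y * (1 - E))).re = (ψ ((1 - E) * y * E)).re := by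
    have e : E * y * (1 - E) = star ((1 - E) * y * E) := by
      rw [star_mul, star_mul, hEp.isSelfAdjoint.star_eq, hgp.isSelfAdjoint.star_eq, hysa,
        mul_assoc]
    rw [e, hψ.map_star, Complex.conj_re]
  have h3 : -‖ψ ((1 - E) * y * E)‖ ≤ (ψ ((1 - E) * y * E)).re := by
    have := Complex.abs_re_le_norm (ψ ((1 - E) * y * E))
    exact (abs_le.mp this).1
  have h4 : (ψ y).re = (ψ (E * y * E)).re + (ψ (E * y * (1 - E))).re
      + (ψ ((1 - E) * y * E)).re + (ψ ((1 - E) * y * (1 - E))).re := by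
    conv_lhs => rw [esplit]
    simp only [map_add, Complex.add_re]
  linarith

end IsGoodFamily

end Vale.Agent.P078
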