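import Vale.Agent.P078.NP.Limit

/-!
# P078: the limit functional is the largest normal minorant of `ψ`
-/

namespace Vale.Agent.P078

open scoped InnerProductSpace
open Filter Topology

variable {H : Type*} [NormedAddCommGroup H] [InnerProductSpace ℂ H] [CompleteSpace H]
variable {M : StarSubalgebra ℂ (H →L[ℂ] H)} {ψ : (H →L[ℂ] H) →L[ℂ] ℂ}
variable {J : Type*} {p : J → (H →L[ℂ] H)} {η : J → H}

lemma proj_opNorm_le_one {e : H →L[ℂ] H} (he : IsStarProjection e) : ‖e‖ ≤ 1 :=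
  ContinuousLinearMap.opNorm_le_bound _ zero_le_one fun x => by
    simpa using proj_norm_apply_le he x

namespace IsGoodFamily

lemma eventually_conv (h : IsGoodFamily M ψ p η) (ξ : H) {δ : ℝ} (hδ : 0 < δ) :
    ∀ᶠ Λ : Finset J in atTop, ‖(1 - pSum p Λ) ξ‖ < δ := by
  obtain ⟨Λ, hΛ⟩ := h.conv ξ δ hδ
  exact eventually_atTop.2 ⟨Λ, fun Λ' hΛ' => hΛ Λ' hΛ'⟩

lemma tendsto_apply_re
    {φ : (H →L[ℂ] H) →L[ℂ] ℂ}
    (hlim : Tendsto (fun Λ : Finset J => compFun ψ (pSum p Λ) (pSum p Λ)) atTop (𝓝 φ))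
    (y : H →L[ℂ] H) :
    Tendsto (fun Λ : Finset J => (ψ (pSum p Λ * y * pSum p Λ)).re) atTop (𝓝 (φ y).re) := by
  have h1 : Continuous fun f : (H →L[ℂ] H) →L[ℂ] ℂ => (f y).re :=
    Complex.continuous_re.comp ((ContinuousLinearMap.apply ℂ ℂ y).continuous)
  exact (h1.tendsto φ).comp hlim

lemma norm_compress_sub_le {E : H →L[ℂ] H} (hE : IsStarProjection E) (y : H →L[ℂ] H) (ζ : H) :
    ‖(E * y * E - y) ζ‖ ≤ ‖y‖ * ‖(1 - E) ζ‖ + ‖(1 - E) (y ζ)‖ := by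
  have e1 : (E * y * E - y) ζ = - E (y ((1 - E) ζ)) - (1 - E) (y ζ) := by
    simp only [sub_apply, mul_apply_eq_comp,
      one_apply_eq_self, map_sub]
    abel
  rw [e1]
  calc ‖- E (y ((1 - E) ζ)) - (1 - E) (y ζ)‖ ≤ ‖- E (y ((1 - E) ζ))‖ + ‖(1 - E) (y ζ)‖ :=
        norm_sub_le _ _
    _ ≤ ‖y‖ * ‖(1 - E) ζ‖ + ‖(1 - E) (y ζ)‖ := by
        gcongr
        rw [norm_neg]
        exact (proj_norm_apply_le hE _).trans (y.le_opNorm _)

lemma le_limit [DecidableEq J] (h : IsGoodFamily M ψ p η) (hψ : IsPosFunctional ψ)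
    {φ : (H →L[ℂ] H) →L[ℂ] ℂ}
    (hlim : Tendsto (fun Λ : Finset J => compFun ψ (pSum p Λ) (pSum p Λ)) atTop (𝓝 φ))
    {θ : (H →L[ℂ] H) →L[ℂ] ℂ} (hθn : IsNormalOn M θ)
    (hθψ : ∀ y ∈ M, 0 ≤ y → (θ y).re ≤ (ψ y).re) :
    ∀ y ∈ M, 0 ≤ y → (θ y).re ≤ (φ y).re := by
  intro y hyM hy
  refine le_of_forall_pos_le_add fun ε hε => ?_
  set c : ℝ := 2 * ‖y‖ + 1 with hc
  have hy0 : 0 ≤ ‖y‖ := norm_nonneg y
  have hc1 : 1 ≤ c := by rw [hc]; linarith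
  have hc0 : 0 < c := by linarith
  obtain ⟨F, δ, hδ, hF⟩ := hθn (ε / c) (div_pos hε hc0)
  have hev : ∀ᶠ Λ : Finset J in atTop, ∀ ζ ∈ F, ‖(pSum p Λ * y * pSum p Λ - y) ζ‖ < δ := by
    rw [Filter.eventually_all_finset]
    intro ζ _
    have h1 := h.eventually_conv ζ (δ := δ / (2 * (‖y‖ + 1))) (by positivity)
    have h2 := h.eventually_conv (y ζ) (δ := δ / 2) (by positivity)
    filter_upwards [h1, h2] with Λ h1 h2
    refine (norm_compress_sub_le (h.pSum_proj Λ) y ζ).trans_lt ?_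
    have h3 : ‖y‖ * ‖(1 - pSum p Λ) ζ‖ ≤ ‖y‖ * (δ / (2 * (‖y‖ + 1))) := by gcongr
    have h4 : ‖y‖ * (δ / (2 * (‖y‖ + 1))) ≤ δ / 2 := by
      rw [mul_div_assoc', div_le_div_iff₀ (by positivity) (by positivity)]
      nlinarith
    linarith
  have hfin : ∀ᶠ Λ : Finset J in atTop, (θ y).re - ε ≤ (ψ (pSum p Λ * y * pSum p Λ)).re := by
    filter_upwards [hev] with Λ hΛ
    set E := pSum p Λ with hE
    have hEp : IsStarProjection E := h.pSum_proj Λ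
    have hEM : E ∈ M := h.pSum_mem Λ
    have hEyE : E * y * E ∈ M := mul_mem (mul_mem hEM hyM) hEM
    have hpos : 0 ≤ E * y * E := by
      have := star_left_conjugate_nonneg hy E
      rwa [hEp.isSelfAdjoint.star_eq] at this
    have hE1 : ‖E‖ ≤ 1 := proj_opNorm_le_one hEp
    have hnorm : ‖E * y * E - y‖ ≤ c := by
      have h1 : ‖E * y * E‖ ≤ ‖y‖ := by
        calc ‖E * y * E‖ ≤ ‖E * y‖ * ‖E‖ := norm_mul_le _ _
          _ ≤ (‖E‖ * ‖y‖) * ‖E‖ := by gcongr; exact norm_mul_le _ _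
          _ ≤ (1 * ‖y‖) * 1 := by gcongr
          _ = ‖y‖ := by ring
      have := norm_sub_le (E * y * E) y
      rw [hc]; linarith
    set m : H →L[ℂ] H := ((c⁻¹ : ℝ) : ℂ) • (E * y * E - y) with hm
    have hmM : m ∈ M := M.smul_mem (sub_mem hEyE hyM) _
    have hcn : ‖((c⁻¹ : ℝ) : ℂ)‖ = c⁻¹ := by
      rw [Complex.norm_real, Real.norm_of_nonneg (inv_nonneg.2 hc0.le)]
    have hm1 : ‖m‖ ≤ 1 := by
      rw [hm, norm_smul, hcn, inv_mul_le_iff₀ hc0]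
      simpa using hnorm
    have hmF : ∀ ζ ∈ F, ‖m ζ‖ < δ := by
      intro ζ hζ
      rw [hm, smul_apply, norm_smul, hcn]
      have h5 := hΛ ζ hζ
      have h6 : c⁻¹ ≤ 1 := inv_le_one_of_one_le₀ hc1
      calc c⁻¹ * ‖(E * y * E - y) ζ‖ ≤ 1 * ‖(E * y * E - y) ζ‖ := by gcongr
        _ < δ := by simpa using h5
    have h7 := hF m hmM hm1 hmF
    have h8 : ‖θ (E * y * E - y)‖ < ε := by
      rw [hm, map_smul, norm_smul, hcn, lt_div_iff₀ hc0] at h7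
      have : c⁻¹ * ‖θ (E * y * E - y)‖ * c = ‖θ (E * y * E - y)‖ := by
        field_simp
      linarith
    have h9 : (θ (E * y * E - y)).re = (θ (E * y * E)).re - (θ y).re := by
      rw [map_sub, Complex.sub_re]
    have h10 : |(θ (E * y * E - y)).re| ≤ ‖θ (E * y * E - y)‖ := Complex.abs_re_le_norm _
    have h11 := hθψ _ hEyE hpos
    have h12 := neg_abs_le (θ (E * y * E - y)).re
    linarith
  have := ge_of_tendsto (tendsto_apply_re hlim y) hfin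
  linarith

lemma re_pSum_mono [DecidableEq J] (h : IsGoodFamily M ψ p η) (hψ : IsPosFunctional ψ)
    {Λ Λ' : Finset J} (hΛ : Λ ⊆ Λ') : (ψ (pSum p Λ)).re ≤ (ψ (pSum p Λ')).re := by
  have h1 : 0 ≤ pSum p Λ' - pSum p Λ := (h.pSum_sub_proj hΛ).nonneg
  have h2 := (hψ _ h1).1
  rw [map_sub, Complex.sub_re] at h2
  linarith

lemma mass [DecidableEq J] (h : IsGoodFamily M ψ p η) (hψ : IsPosFunctional ψ)
    {φ : (H →L[ℂ] H) →L[ℂ] ℂ}
    (hlim : Tendsto (fun Λ : Finset J => compFun ψ (pSum p Λ) (pSum p Λ)) atTop (𝓝 φ))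
    (F : Finset H) {δ : ℝ} (hδ : 0 < δ) :
    ∃ q ∈ M, IsStarProjection q ∧ (∀ ξ ∈ F, ‖(1 - q) ξ‖ < δ) ∧ (ψ q).re ≤ (φ 1).re := by
  have hev : ∀ᶠ Λ : Finset J in atTop, ∀ ξ ∈ F, ‖(1 - pSum p Λ) ξ‖ < δ := by
    rw [Filter.eventually_all_finset]
    intro ξ _
    exact h.eventually_conv ξ hδ
  obtain ⟨Λ, hΛ⟩ := hev.exists
  refine ⟨pSum p Λ, h.pSum_mem Λ, h.pSum_proj Λ, hΛ, ?_⟩
  refine ge_of_tendsto (tendsto_apply_re hlim 1) ?_
  filter_upwards [eventually_ge_atTop Λ] with Λ' hΛ'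
  have h1 : pSum p Λ' * 1 * pSum p Λ' = pSum p Λ' := by
    rw [mul_one]; exact (h.pSum_proj Λ').isIdempotentElem
  rw [h1]
  exact h.re_pSum_mono hψ hΛ'

end IsGoodFamily

end Vale.Agent.P078
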