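import Vale.Agent.P078.VN.Threshold

/-!
# P078: positive operators are norm limits of positive combinations of their spectral projections
-/

namespace Vale.Agent.P078

open scoped InnerProductSpace

variable {H : Type*} [NormedAddCommGroup H] [InnerProductSpace ℂ H] [CompleteSpace H]

lemma bisect_gen {d : H →L[ℂ] H} (τ : ℝ) (h0 : 0 ≤ d)
    (h1 : d ≤ ((2 * τ : ℝ) : ℂ) • (1 : H →L[ℂ] H)) :
    ∃ e : H →L[ℂ] H, IsStarProjection e ∧ (∀ a : H →L[ℂ] H, a * d = d * a → a * e = e * a) ∧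
      0 ≤ d - (τ : ℂ) • e ∧ d - (τ : ℂ) • e ≤ (τ : ℂ) • (1 : H →L[ℂ] H) := by
  set T : H →L[ℂ] H := (τ : ℂ) • (1 : H →L[ℂ] H) with hT
  have hdsa : IsSelfAdjoint d := IsSelfAdjoint.of_nonneg h0
  have hcsa : IsSelfAdjoint (d - T) := hdsa.sub (real_smul_one_sa τ)
  obtain ⟨e, hep, he1, he2, hcomm⟩ := exists_threshold_gen hcsa
  have hcomm' : ∀ a : H →L[ℂ] H, a * d = d * a → a * e = e * a := by
    intro a ha
    apply hcomm
    rw [mul_sub, sub_mul, ha, hT, mul_smul_comm, smul_mul_assoc, mul_one, one_mul]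
  have hee : e * e = e := hep.isIdempotentElem.eq
  have hed : e * d = d * e := (hcomm' d rfl).symm
  have hTe : T * e = (τ : ℂ) • e := by rw [hT, smul_mul_assoc, one_mul]
  have heT : e * T = (τ : ℂ) • e := by rw [hT, mul_smul_comm, mul_one]
  have h2T : ((2 * τ : ℝ) : ℂ) • (1 : H →L[ℂ] H) = T + T := by
    rw [hT, ← add_smul]; push_cast; ring_nf
  refine ⟨e, hep, hcomm', ?_, ?_⟩
  · have key : d - (τ : ℂ) • e = (d - T)⁺ + (1 - e) * d * (1 - e) := by
      rw [← he1, ← hTe]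
      have : (1 - e) * d * (1 - e) = d - d * e := by
        simp only [sub_mul, mul_sub, one_mul, mul_one]
        rw [hed, mul_assoc, hee]
        abel
      rw [this]
      simp only [sub_mul]
      abel
    rw [key]
    exact add_nonneg (CFC.posPart_nonneg _)
      (IsSelfAdjoint.conjugate_nonneg h0 ((IsSelfAdjoint.one _).sub hep.isSelfAdjoint))
  · have key : T - (d - (τ : ℂ) • e) = (d - T)⁻ + e * (T + T - d) * e := by
      have h3 : (d - T)⁻ = - ((d - T) * (1 - e)) := by rw [he2, neg_neg]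
      rw [h3, ← hTe]
      have : e * (T + T - d) * e = T * e + T * e - d * e := by
        simp only [sub_mul, mul_sub, add_mul, mul_add]
        rw [hed, mul_assoc d, hee, heT, ← hTe, mul_assoc T, hee]
      rw [this]
      simp only [sub_mul, mul_sub, mul_one]
      abel
    rw [← sub_nonneg, key]
    apply add_nonneg (CFC.negPart_nonneg _)
    apply IsSelfAdjoint.conjugate_nonneg _ hep.isSelfAdjoint
    rw [sub_nonneg, ← h2T]
    exact h1

lemma dyadic_approx_aux {y : H →L[ℂ] H} (hy : 0 ≤ y) (n : ℕ) :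
    ∃ (c : Fin n → ℝ) (e : Fin n → (H →L[ℂ] H)), (∀ k, 0 ≤ c k) ∧ (∀ k, IsStarProjection (e k)) ∧
      (∀ k, ∀ a : H →L[ℂ] H, a * y = y * a → a * e k = e k * a) ∧
      0 ≤ y - ∑ k, (c k : ℂ) • e k ∧
      y - ∑ k, (c k : ℂ) • e k ≤ ((‖y‖ / 2 ^ n : ℝ) : ℂ) • (1 : H →L[ℂ] H) := by
  have hconv : ∀ t : ℝ, algebraMap ℝ (H →L[ℂ] H) t = (t : ℂ) • (1 : H →L[ℂ] H) := by
    intro t
    rw [Algebra.algebraMap_eq_smul_one, Complex.coe_smul]
  induction n with
  | zero =>
    refine ⟨fun k => k.elim0, fun k => k.elim0, fun k => k.elim0, fun k => k.elim0,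
      fun k => k.elim0, ?_, ?_⟩
    · simpa using hy
    · have := (IsSelfAdjoint.of_nonneg hy).le_algebraMap_norm_self
      rw [hconv] at this
      simpa using this
  | succ n ih =>
    obtain ⟨c, e, hc, he, hcomm, h0, h1⟩ := ih
    set τ : ℝ := ‖y‖ / 2 ^ (n + 1) with hτ
    have hτ0 : 0 ≤ τ := by positivity
    have h1' : y - ∑ k, (c k : ℂ) • e k ≤ ((2 * τ : ℝ) : ℂ) • (1 : H →L[ℂ] H) := by
      convert h1 using 3
      rw [hτ, pow_succ]; field_simp
    obtain ⟨e', hep, hc', g0, g1⟩ := bisect_gen τ h0 h1'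
    have hsum : ∑ k : Fin (n + 1), ((Fin.snoc c τ : Fin (n + 1) → ℝ) k : ℂ) •
        (Fin.snoc e e' : Fin (n + 1) → (H →L[ℂ] H)) k
        = ∑ k, (c k : ℂ) • e k + (τ : ℂ) • e' := by
      rw [Fin.sum_univ_castSucc]
      simp only [Fin.snoc_castSucc, Fin.snoc_last]
    refine ⟨Fin.snoc c τ, Fin.snoc e e', ?_, ?_, ?_, ?_, ?_⟩
    · intro k
      refine Fin.lastCases ?_ (fun j => ?_) k
      · simpa using hτ0
      · simpa using hc j
    · intro k
      refine Fin.lastCases ?_ (fun j => ?_) k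
      · simpa using hep
      · simpa using he j
    · intro k
      refine Fin.lastCases ?_ (fun j => ?_) k
      · intro a ha
        simp only [Fin.snoc_last]
        apply hc'
        rw [mul_sub, sub_mul, ha, Finset.mul_sum, Finset.sum_mul]
        congr 1
        apply Finset.sum_congr rfl
        intro j _
        rw [mul_smul_comm, smul_mul_assoc, hcomm j a ha]
      · intro a ha
        simp only [Fin.snoc_castSucc]
        exact hcomm j a ha
    · rw [hsum, ← sub_sub]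
      exact g0
    · rw [hsum, ← sub_sub]
      exact g1

lemma dyadic_approx {y : H →L[ℂ] H} (hy : 0 ≤ y) (n : ℕ) :
    ∃ (c : Fin n → ℝ) (e : Fin n → (H →L[ℂ] H)), (∀ k, 0 ≤ c k) ∧ (∀ k, IsStarProjection (e k)) ∧
      (∀ k, ∀ a : H →L[ℂ] H, a * y = y * a → a * e k = e k * a) ∧
      ‖y - ∑ k, (c k : ℂ) • e k‖ ≤ ‖y‖ / 2 ^ n := by
  obtain ⟨c, e, hc, he, hcomm, h0, h1⟩ := dyadic_approx_aux hy n
  refine ⟨c, e, hc, he, hcomm, ?_⟩
  calc ‖y - ∑ k, (c k : ℂ) • e k‖ ≤ ‖((‖y‖ / 2 ^ n : ℝ) : ℂ) • (1 : H →L[ℂ] H)‖ :=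
        CStarAlgebra.norm_le_norm_of_nonneg_of_le h0 h1
    _ ≤ ‖y‖ / 2 ^ n := norm_real_smul_one_le (by positivity)

end Vale.Agent.P078
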