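import Vale.Agent.P078.NP.PosFun
import Vale.Agent.P078.NP.Dyadic

/-!
# P078: below every nonzero projection of `M` there is a nonzero projection on which a given positive
functional is dominated by a vector functional
-/

namespace Vale.Agent.P078

open scoped InnerProductSpace

variable {H : Type*} [NormedAddCommGroup H] [InnerProductSpace ℂ H] [CompleteSpace H]
variable {M : StarSubalgebra ℂ (H →L[ℂ] H)} {ψ : (H →L[ℂ] H) →L[ℂ] ℂ}

/-
PROOF SKETCH (subtask).  Put `y' := e * y * e ∈ M`, `y' ≥ 0`, and `e` commutes with `y'`.  By `dyadic_approx`, `y'` is within `‖y'‖/2^n` of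
`s = ∑ c k • e k` with `c k ≥ 0` and projections `e k` commuting with everything that commutes with `y'`: so `e k ∈ M` (by `hM`) and
`e k` commutes with `e`; `e * e k` is a projection of `M` below `e`.  `y' = e y' e` is within `‖y'‖/2^n` of `e s e = ∑ c k • (e * e k)`, where
`θ` has nonnegative real part.  So `(θ y').re ≥ - ‖θ‖ ‖y'‖ / 2^n` for all `n`.
-/
lemma re_nonneg_of_proj (hM : IsVN M) (θ : (H →L[ℂ] H) →L[ℂ] ℂ) {e : H →L[ℂ] H} (heM : e ∈ M)
    (hep : IsStarProjection e)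
    (h : ∀ r ∈ M, IsStarProjection r → e * r = r → 0 ≤ (θ r).re) :
    ∀ y ∈ M, 0 ≤ y → 0 ≤ (θ (e * y * e)).re := by
  intro y hyM hy
  have hee : e * e = e := hep.isIdempotentElem
  have hes : star e = e := hep.isSelfAdjoint
  have hen : ‖e‖ ≤ 1 := IsStarProjection.norm_le e hep
  obtain ⟨y', hy'⟩ : ∃ y', y' = e * y * e := ⟨_, rfl⟩
  rw [← hy']
  have hy'M : y' ∈ M := by rw [hy']; exact M.mul_mem (M.mul_mem heM hyM) heM
  have hy'0 : 0 ≤ y' := by
    have := star_left_conjugate_nonneg hy e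
    rw [hes] at this
    rw [hy']; exact this
  have hey' : e * y' = y' := by rw [hy', ← mul_assoc, ← mul_assoc, hee]
  have hy'e : y' * e = y' := by rw [hy', mul_assoc, hee]
  have hcomm : e * y' = y' * e := by rw [hey', hy'e]
  have hbound : ∀ n : ℕ, -(‖θ‖ * ‖y'‖ * (1 / 2) ^ n) ≤ (θ y').re := by
    intro n
    obtain ⟨c, f, hc, hf, hfc, hn⟩ := dyadic_approx hy'0 n
    have hfM : ∀ k, f k ∈ M := by
      intro k
      apply hM
      intro S hS
      exact hfc k S (hS y' hy'M)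
    have hef : ∀ k, e * f k = f k * e := fun k => hfc k e hcomm
    have hr : ∀ k, 0 ≤ (θ (e * f k)).re := by
      intro k
      apply h _ (M.mul_mem heM (hfM k))
      · refine ⟨?_, ?_⟩
        · show e * f k * (e * f k) = e * f k
          calc e * f k * (e * f k) = e * (f k * e) * f k := by simp only [mul_assoc]
            _ = e * (e * f k) * f k := by rw [hef k]
            _ = (e * e) * (f k * f k) := by simp only [mul_assoc]
            _ = e * f k := by rw [hee, (hf k).isIdempotentElem]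
        · show star (e * f k) = e * f k
          rw [star_mul, hes, (hf k).isSelfAdjoint.star_eq, hef k]
      · rw [← mul_assoc, hee]
    have hese : e * (∑ k, (c k : ℂ) • f k) * e = ∑ k, (c k : ℂ) • (e * f k) := by
      rw [Finset.mul_sum, Finset.sum_mul]
      apply Finset.sum_congr rfl
      intro k _
      rw [mul_smul_comm, smul_mul_assoc, mul_assoc, ← hef k, ← mul_assoc, hee]
    have hs0 : 0 ≤ (θ (e * (∑ k, (c k : ℂ) • f k) * e)).re := by
      rw [hese, map_sum, Complex.re_sum]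
      apply Finset.sum_nonneg
      intro k _
      rw [map_smul, smul_eq_mul, Complex.re_ofReal_mul]
      exact mul_nonneg (hc k) (hr k)
    have hdiff : y' - e * (∑ k, (c k : ℂ) • f k) * e = e * (y' - ∑ k, (c k : ℂ) • f k) * e := by
      rw [mul_sub, sub_mul, hey', hy'e]
    have hnorm : ‖y' - e * (∑ k, (c k : ℂ) • f k) * e‖ ≤ ‖y'‖ * (1 / 2) ^ n := by
      rw [hdiff]
      calc ‖e * (y' - ∑ k, (c k : ℂ) • f k) * e‖
          ≤ ‖e‖ * ‖y' - ∑ k, (c k : ℂ) • f k‖ * ‖e‖ :=
            (norm_mul_le _ _).trans (mul_le_mul_of_nonneg_right (norm_mul_le _ _) (norm_nonneg _))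
        _ ≤ 1 * ‖y' - ∑ k, (c k : ℂ) • f k‖ * 1 := by
            gcongr
        _ = ‖y' - ∑ k, (c k : ℂ) • f k‖ := by ring
        _ ≤ ‖y'‖ / 2 ^ n := hn
        _ = ‖y'‖ * (1 / 2) ^ n := by
            rw [one_div, inv_pow, div_eq_mul_inv]
    have h1 : |(θ (y' - e * (∑ k, (c k : ℂ) • f k) * e)).re| ≤ ‖θ‖ * (‖y'‖ * (1 / 2) ^ n) :=
      calc |(θ (y' - e * (∑ k, (c k : ℂ) • f k) * e)).re|
          ≤ ‖θ (y' - e * (∑ k, (c k : ℂ) • f k) * e)‖ := Complex.abs_re_le_norm _
        _ ≤ ‖θ‖ * ‖y' - e * (∑ k, (c k : ℂ) • f k) * e‖ := θ.le_opNorm _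
        _ ≤ ‖θ‖ * (‖y'‖ * (1 / 2) ^ n) := mul_le_mul_of_nonneg_left hnorm (norm_nonneg _)
    rw [map_sub, Complex.sub_re] at h1
    have h2 := (abs_le.1 h1).1
    linarith
  have hlim : Filter.Tendsto (fun n : ℕ => -(‖θ‖ * ‖y'‖ * (1 / 2 : ℝ) ^ n)) Filter.atTop
      (nhds 0) := by
    have h0 := tendsto_pow_atTop_nhds_zero_of_lt_one (r := (1 / 2 : ℝ)) (by norm_num)
      (by norm_num)
    have h1 := (h0.const_mul (‖θ‖ * ‖y'‖)).neg
    simpa using h1
  exact le_of_tendsto' hlim hbound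

end Vale.Agent.P078
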