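import Vale.Agent.P078.VN.Threshold
import Vale.Agent.P078.Diffuse

/-!
# P078: orthogonal families of projections in a von Neumann algebra
-/

namespace Vale.Agent.P078

open scoped InnerProductSpace

variable {H : Type*} [NormedAddCommGroup H] [InnerProductSpace ℂ H] [CompleteSpace H]
variable {M : StarSubalgebra ℂ (H →L[ℂ] H)}

lemma proj_mul_eq_zero_comm {p r : H →L[ℂ] H} (hp : IsStarProjection p) (hr : IsStarProjection r)
    (h : r * p = 0) : p * r = 0 := by
  have := congrArg star h
  rwa [star_mul, hp.isSelfAdjoint.star_eq, hr.isSelfAdjoint.star_eq, star_zero] at this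

lemma exists_maximal_orthogonal (Q : (H →L[ℂ] H) → Prop) :
    ∃ 𝓕 : Set (H →L[ℂ] H), (∀ p ∈ 𝓕, IsStarProjection p ∧ p ≠ 0 ∧ Q p) ∧
      (∀ p ∈ 𝓕, ∀ p' ∈ 𝓕, p ≠ p' → p * p' = 0) ∧
      (∀ r, IsStarProjection r → r ≠ 0 → Q r → (∀ p ∈ 𝓕, r * p = 0) → False) := by
  obtain ⟨m, hm⟩ := zorn_subset
    {𝓕 : Set (H →L[ℂ] H) | (∀ p ∈ 𝓕, IsStarProjection p ∧ p ≠ 0 ∧ Q p) ∧
      (∀ p ∈ 𝓕, ∀ p' ∈ 𝓕, p ≠ p' → p * p' = 0)} (by
    intro c hc hchain
    refine ⟨⋃₀ c, ⟨?_, ?_⟩, fun s hs => Set.subset_sUnion_of_mem hs⟩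
    · rintro p ⟨s, hs, hp⟩
      exact (hc hs).1 p hp
    · rintro p ⟨s, hs, hp⟩ p' ⟨s', hs', hp'⟩ hne
      rcases hchain.total hs hs' with h | h
      · exact (hc hs').2 p (h hp) p' hp' hne
      · exact (hc hs).2 p hp p' (h hp') hne)
  refine ⟨m, hm.prop.1, hm.prop.2, ?_⟩
  intro r hr hr0 hQ horth
  have hins : insert r m ∈ {𝓕 : Set (H →L[ℂ] H) | (∀ p ∈ 𝓕, IsStarProjection p ∧ p ≠ 0 ∧ Q p) ∧
      (∀ p ∈ 𝓕, ∀ p' ∈ 𝓕, p ≠ p' → p * p' = 0)} := by
    refine ⟨?_, ?_⟩
    · rintro p (rfl | hp)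
      · exact ⟨hr, hr0, hQ⟩
      · exact hm.prop.1 p hp
    · rintro p (rfl | hp) p' (rfl | hp') hne
      · exact absurd rfl hne
      · exact horth p' hp'
      · exact proj_mul_eq_zero_comm (hm.prop.1 p hp).1 hr (horth p hp)
      · exact hm.prop.2 p hp p' hp' hne
  have hsub := hm.le_of_ge hins (Set.subset_insert r m)
  have hrm : r ∈ m := hsub (Set.mem_insert r m)
  have h0 := horth r hrm
  rw [hr.isIdempotentElem.eq] at h0
  exact hr0 h0

/-- A finite sum of mutually orthogonal projections is a projection. -/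
lemma finset_sum_proj {J : Type*} (p : J → (H →L[ℂ] H)) (Λ : Finset J)
    (hp : ∀ j ∈ Λ, IsStarProjection (p j)) (horth : ∀ j ∈ Λ, ∀ k ∈ Λ, j ≠ k → p j * p k = 0) :
    IsStarProjection (∑ j ∈ Λ, p j) := by
  classical
  refine ⟨?_, ?_⟩
  · unfold IsIdempotentElem
    rw [Finset.sum_mul_sum]
    apply Finset.sum_congr rfl
    intro j hj
    rw [Finset.sum_eq_single j]
    · exact (hp j hj).isIdempotentElem.eq
    · intro k hk hkj
      exact horth j hj k hk (Ne.symm hkj)
    · intro h
      exact absurd hj h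
  · exact isSelfAdjoint_sum Λ fun j hj => (hp j hj).isSelfAdjoint

lemma exists_sup (hM : IsVN M) (𝓕 : Set (H →L[ℂ] H))
    (h𝓕 : ∀ p ∈ 𝓕, p ∈ M ∧ IsStarProjection p)
    (horth : ∀ p ∈ 𝓕, ∀ p' ∈ 𝓕, p ≠ p' → p * p' = 0) :
    ∃ P ∈ M, IsStarProjection P ∧ (∀ p ∈ 𝓕, P * p = p) ∧
      (∀ r : H →L[ℂ] H, (∀ p ∈ 𝓕, r * p = 0) → r * P = 0) ∧
      (∀ (ξ : H) (δ : ℝ), 0 < δ → ∃ Λ : Finset (H →L[ℂ] H), (↑Λ ⊆ 𝓕) ∧
        ∀ Λ' : Finset (H →L[ℂ] H), Λ ⊆ Λ' → ↑Λ' ⊆ 𝓕 → ‖(P - ∑ p ∈ Λ', p) ξ‖ < δ) := by
  classical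
  set K₀ : Submodule ℂ H := ⨆ p : 𝓕, fixedSub p.1 with hK₀
  set K : Submodule ℂ H := K₀.topologicalClosure with hK
  have hPp : IsStarProjection K.starProjection := isStarProjection_starProjection
  have hinv : ∀ S : H →L[ℂ] H, (∀ m ∈ M, S * m = m * S) → ∀ x ∈ K, S x ∈ K := by
    intro S hS
    apply map_topologicalClosure
    have hle : K₀ ≤ K₀.comap (S : H →ₗ[ℂ] H) := by
      apply iSup_le
      intro p x hx
      have hx' : p.1 x = x := hx
      rw [Submodule.mem_comap]
      apply Submodule.mem_iSup_of_mem p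
      show p.1 (S x) = S x
      have := congrArg (fun T : H →L[ℂ] H => T x) (hS p.1 (h𝓕 p.1 p.2).1)
      simp only [mul_apply', hx'] at this
      exact this.symm
    intro x hx
    exact hle hx
  have hPM : K.starProjection ∈ M := by
    apply hM
    intro S hS
    apply starProjection_commute (hinv S hS)
    apply hinv
    intro m hm
    have h1 := hS (star m) (star_mem hm)
    have h2 := congrArg star h1
    rw [star_mul, star_mul, star_star] at h2
    exact h2.symm
  have hfix : ∀ p ∈ 𝓕, ∀ x, p x ∈ K := by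
    intro p hp x
    apply Submodule.le_topologicalClosure
    apply Submodule.mem_iSup_of_mem (⟨p, hp⟩ : 𝓕)
    exact proj_apply_apply (h𝓕 p hp).2 x
  have hPmul : ∀ p ∈ 𝓕, K.starProjection * p = p := by
    intro p hp
    ext x
    exact Submodule.starProjection_eq_self_iff.mpr (hfix p hp x)
  have hmulP : ∀ p ∈ 𝓕, p * K.starProjection = p := by
    intro p hp
    have := congrArg star (hPmul p hp)
    rwa [star_mul, hPp.isSelfAdjoint.star_eq, (h𝓕 p hp).2.isSelfAdjoint.star_eq] at this
  refine ⟨K.starProjection, hPM, hPp, hPmul, ?_, ?_⟩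
  · intro r hr
    have hle : K ≤ r.ker := by
      apply Submodule.topologicalClosure_minimal
      · apply iSup_le
        intro p x hx
        have hx' : p.1 x = x := hx
        have h1 : (r * p.1) x = (0 : H →L[ℂ] H) x := by rw [hr p.1 p.2]
        simp only [mul_apply', hx'] at h1
        exact h1
      · exact r.isClosed_ker
    ext x
    simp only [mul_apply']
    exact hle (K.starProjection_apply_mem x)
  · intro ξ δ hδ
    have hcl : K.starProjection ξ ∈ closure (K₀ : Set H) := K.starProjection_apply_mem ξ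
    obtain ⟨v, hv, hdist⟩ := Metric.mem_closure_iff.mp hcl δ hδ
    have hv' : v ∈ K₀ := hv
    rw [hK₀, Submodule.mem_iSup_iff_exists_finset] at hv'
    obtain ⟨s, hs⟩ := hv'
    refine ⟨s.image Subtype.val, ?_, ?_⟩
    · intro p hp
      rw [Finset.coe_image] at hp
      obtain ⟨q, -, rfl⟩ := hp
      exact q.2
    · intro Λ' hΛ hΛ'
      set E : H →L[ℂ] H := ∑ p ∈ Λ', p with hE
      have hEp : IsStarProjection E :=
        finset_sum_proj (fun p => p) Λ' (fun p hp => (h𝓕 p (hΛ' hp)).2)
          (fun p hp q hq hne => horth p (hΛ' hp) q (hΛ' hq) hne)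
      have hPE : K.starProjection * E = E := by
        rw [hE, Finset.mul_sum]
        exact Finset.sum_congr rfl fun p hp => hPmul p (hΛ' hp)
      have hEP : E * K.starProjection = E := by
        rw [hE, Finset.sum_mul]
        exact Finset.sum_congr rfl fun p hp => hmulP p (hΛ' hp)
      have hEv : E v = v := by
        have hle : (⨆ i ∈ s, fixedSub (i : 𝓕).1) ≤ fixedSub E := by
          apply iSup₂_le
          intro i hi x hx
          have hx' : i.1 x = x := hx
          have hiΛ : i.1 ∈ Λ' := hΛ (Finset.mem_image_of_mem _ hi)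
          show E x = x
          rw [hE, ContinuousLinearMap.sum_apply, Finset.sum_eq_single i.1]
          · exact hx'
          · intro q hq hne
            have h1 : (q * i.1) x = (0 : H →L[ℂ] H) x := by
              rw [horth q (hΛ' hq) i.1 i.2 hne]
            simp only [mul_apply', hx'] at h1
            exact h1
          · intro h
            exact absurd hiΛ h
        exact hle hs
      have hPv : K.starProjection v = v :=
        Submodule.starProjection_eq_self_iff.mpr (Submodule.le_topologicalClosure _ hv)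
      have hdp : IsStarProjection (K.starProjection - E) := by
        refine ⟨?_, hPp.isSelfAdjoint.sub hEp.isSelfAdjoint⟩
        unfold IsIdempotentElem
        rw [sub_mul, mul_sub, mul_sub, hPp.isIdempotentElem.eq, hPE, hEP, hEp.isIdempotentElem.eq]
        abel
      have hkey : (K.starProjection - E) ξ = (K.starProjection - E) (K.starProjection ξ - v) := by
        have h1 : E (K.starProjection ξ) = E ξ := by
          have := congrArg (fun T : H →L[ℂ] H => T ξ) hEP
          simpa only [mul_apply'] using this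
        have h2 : K.starProjection (K.starProjection ξ) = K.starProjection ξ :=
          proj_apply_apply hPp ξ
        rw [map_sub, ContinuousLinearMap.sub_apply, ContinuousLinearMap.sub_apply,
          ContinuousLinearMap.sub_apply, h1, h2, hPv, hEv, sub_self, sub_zero]
      rw [hkey]
      refine lt_of_le_of_lt (proj_norm_apply_le hdp _) ?_
      rw [← dist_eq_norm]
      exact hdist

end Vale.Agent.P078
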