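import Vale.Agent.P078.NP.PosFun
import Vale.Agent.P078.NP.ProjSup

/-!
# P078: below every nonzero projection of `M` there is a nonzero projection on which a given positive
functional is dominated by a vector functional
-/

namespace Vale.Agent.P078

open scoped InnerProductSpace

variable {H : Type*} [NormedAddCommGroup H] [InnerProductSpace ℂ H] [CompleteSpace H]
variable {M : StarSubalgebra ℂ (H →L[ℂ] H)} {ψ : (H →L[ℂ] H) →L[ℂ] ℂ}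

/-- The norm square of a finite orthogonal sum of projections applied to a vector. -/
lemma norm_sq_finset_sum_proj (Λ : Finset (H →L[ℂ] H)) (hp : ∀ p ∈ Λ, IsStarProjection p)
    (horth : ∀ p ∈ Λ, ∀ p' ∈ Λ, p ≠ p' → p * p' = 0) (η : H) :
    ‖(∑ p ∈ Λ, p) η‖ ^ 2 = ∑ p ∈ Λ, ‖p η‖ ^ 2 := by
  have hE : IsStarProjection (∑ p ∈ Λ, p) := finset_sum_proj (fun p => p) Λ hp horth
  have h1 := proj_inner_self hE η
  have h2 : ⟪η, (∑ p ∈ Λ, p) η⟫_ℂ = ((∑ p ∈ Λ, ‖p η‖ ^ 2 : ℝ) : ℂ) := by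
    rw [sum_apply, inner_sum, Complex.ofReal_sum]
    exact Finset.sum_congr rfl (fun p hpΛ => proj_inner_self (hp p hpΛ) η)
  rw [h1] at h2
  exact_mod_cast h2

/-- A supremum of projections on each of which `ψ` dominates the vector functional. -/
lemma norm_sq_le_of_sup (hψ : IsPosFunctional ψ) (𝓕 : Set (H →L[ℂ] H)) (η : H)
    (h𝓕 : ∀ p ∈ 𝓕, IsStarProjection p ∧ ‖p η‖ ^ 2 ≤ (ψ p).re)
    (horth : ∀ p ∈ 𝓕, ∀ p' ∈ 𝓕, p ≠ p' → p * p' = 0)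
    {P : H →L[ℂ] H} (hPp : IsStarProjection P) (hPabs : ∀ p ∈ 𝓕, P * p = p)
    (happ : ∀ (δ : ℝ), 0 < δ → ∃ Λ : Finset (H →L[ℂ] H), (↑Λ ⊆ 𝓕) ∧
        ∀ Λ' : Finset (H →L[ℂ] H), Λ ⊆ Λ' → ↑Λ' ⊆ 𝓕 → ‖(P - ∑ p ∈ Λ', p) η‖ < δ) :
    ‖P η‖ ^ 2 ≤ (ψ P).re := by
  have hs : 0 ≤ (ψ P).re := (hψ P hPp.nonneg).1
  have key : ∀ δ : ℝ, 0 < δ → ‖P η‖ ≤ Real.sqrt (ψ P).re + δ := by
    intro δ hδ
    obtain ⟨Λ, hΛ, hΛ'⟩ := happ δ hδ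
    have hd := hΛ' Λ (Finset.Subset.refl _) hΛ
    have hp : ∀ p ∈ Λ, IsStarProjection p := fun p hpΛ => (h𝓕 p (hΛ hpΛ)).1
    have ho : ∀ p ∈ Λ, ∀ p' ∈ Λ, p ≠ p' → p * p' = 0 :=
      fun p hpΛ p' hp'Λ => horth p (hΛ hpΛ) p' (hΛ hp'Λ)
    have hE : IsStarProjection (∑ p ∈ Λ, p) := finset_sum_proj (fun p => p) Λ hp ho
    have hPE : P * (∑ p ∈ Λ, p) = ∑ p ∈ Λ, p := by
      rw [Finset.mul_sum]
      exact Finset.sum_congr rfl (fun p hpΛ => hPabs p (hΛ hpΛ))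
    have hsub : IsStarProjection (P - ∑ p ∈ Λ, p) := hE.sub_of_mul_eq_right hPp hPE
    have hle : (∑ p ∈ Λ, p) ≤ P := sub_nonneg.1 hsub.nonneg
    have h1 : (ψ (∑ p ∈ Λ, p)).re ≤ (ψ P).re := hψ.re_mono hle
    have h2 : ‖(∑ p ∈ Λ, p) η‖ ^ 2 ≤ (ψ (∑ p ∈ Λ, p)).re := by
      rw [norm_sq_finset_sum_proj Λ hp ho η, map_sum, Complex.re_sum]
      exact Finset.sum_le_sum (fun p hpΛ => (h𝓕 p (hΛ hpΛ)).2)
    have h3 : ‖(∑ p ∈ Λ, p) η‖ ≤ Real.sqrt (ψ P).re :=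
      Real.le_sqrt_of_sq_le (h2.trans h1)
    have h4 : P η = (∑ p ∈ Λ, p) η + (P - ∑ p ∈ Λ, p) η := by
      rw [sub_apply]
      abel
    calc ‖P η‖ = ‖(∑ p ∈ Λ, p) η + (P - ∑ p ∈ Λ, p) η‖ := by rw [← h4]
      _ ≤ ‖(∑ p ∈ Λ, p) η‖ + ‖(P - ∑ p ∈ Λ, p) η‖ := norm_add_le _ _
      _ ≤ Real.sqrt (ψ P).re + δ := add_le_add h3 hd.le
  have h5 : ‖P η‖ ≤ Real.sqrt (ψ P).re := le_of_forall_pos_le_add key
  calc ‖P η‖ ^ 2 ≤ (Real.sqrt (ψ P).re) ^ 2 := pow_le_pow_left₀ (norm_nonneg _) h5 2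
    _ = (ψ P).re := Real.sq_sqrt hs

/-
PROOF SKETCH (subtask).  Let `Q r := r ∈ M ∧ e₀ * r = r ∧ ‖r η‖^2 < (ψ r).re`, take `𝓕` from `exists_maximal_orthogonal Q` and `P` from
`exists_sup`.  `(1 - e₀) * p = 0` for `p ∈ 𝓕`, so `(1 - e₀) * P = 0`, i.e. `e₀ * P = P`; `e := e₀ - P` is a projection of `M`.
`(ψ P).re ≥ ‖P η‖^2`: for a finite `Λ ⊆ 𝓕` with `‖(P - E) η‖ < δ`, `E := ∑ p ∈ Λ, p`: `P - E` is a projection, so `≥ 0`, and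
`(ψ P).re ≥ (ψ E).re = ∑ (ψ p).re ≥ ∑ ‖p η‖^2 = ‖E η‖^2 ≥ (‖P η‖ - δ)^2`; let `δ → 0`.  Hence `e ≠ 0` (else `P = e₀` contradicts `hlt`).
If `r ∈ M` is a projection with `e * r = r` and `‖r η‖^2 < (ψ r).re` then `r ≠ 0`, `Q r`, and `r * p = r * e * p = 0` for `p ∈ 𝓕`:
this contradicts maximality.
-/
lemma exists_dominated_proj (hM : IsVN M) (hψ : IsPosFunctional ψ) {e₀ : H →L[ℂ] H} (he₀M : e₀ ∈ M)
    (he₀p : IsStarProjection e₀) (η : H) (hlt : (ψ e₀).re < ‖e₀ η‖ ^ 2) :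
    ∃ e ∈ M, IsStarProjection e ∧ e ≠ 0 ∧ e₀ * e = e ∧
      ∀ r ∈ M, IsStarProjection r → e * r = r → (ψ r).re ≤ ‖r η‖ ^ 2 := by
  obtain ⟨𝓕, h𝓕, horth, hmax⟩ := exists_maximal_orthogonal
    (fun r : H →L[ℂ] H => r ∈ M ∧ e₀ * r = r ∧ ‖r η‖ ^ 2 < (ψ r).re)
  obtain ⟨P, hPM, hPp, hPabs, hPz, hPapp⟩ := exists_sup hM 𝓕
    (fun p hp => ⟨(h𝓕 p hp).2.2.1, (h𝓕 p hp).1⟩) horth
  have h0 : (1 - e₀) * P = 0 := hPz (1 - e₀) (fun p hp => by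
    rw [sub_mul, one_mul, (h𝓕 p hp).2.2.2.1, sub_self])
  have he₀P : e₀ * P = P := by
    rw [sub_mul, one_mul, sub_eq_zero] at h0
    exact h0.symm
  have hep : IsStarProjection (e₀ - P) := hPp.sub_of_mul_eq_right he₀p he₀P
  have hPη : ‖P η‖ ^ 2 ≤ (ψ P).re := norm_sq_le_of_sup hψ 𝓕 η
    (fun p hp => ⟨(h𝓕 p hp).1, (h𝓕 p hp).2.2.2.2.le⟩) horth hPp hPabs (hPapp η)
  have hee : e₀ * (e₀ - P) = e₀ - P := by
    rw [mul_sub, he₀p.isIdempotentElem.eq, he₀P]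
  refine ⟨e₀ - P, sub_mem he₀M hPM, hep, ?_, hee, ?_⟩
  · intro h
    have : e₀ = P := sub_eq_zero.1 h
    rw [this] at hlt
    exact absurd hPη (not_le.2 hlt)
  · intro r hrM hrp her
    by_contra hcon
    have hcon' : ‖r η‖ ^ 2 < (ψ r).re := not_le.1 hcon
    have hr0 : r ≠ 0 := by
      intro h
      rw [h] at hcon'
      simp at hcon'
    have hre : r * (e₀ - P) = r := by
      have := congrArg star her
      rwa [star_mul, hrp.isSelfAdjoint.star_eq, hep.isSelfAdjoint.star_eq] at this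
    refine hmax r hrp hr0 ⟨hrM, ?_, hcon'⟩ ?_
    · rw [← her, ← mul_assoc, hee]
    · intro p hp
      rw [← hre, mul_assoc, sub_mul, (h𝓕 p hp).2.2.2.1, hPabs p hp, sub_self, mul_zero]

end Vale.Agent.P078
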