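import Vale.Agent.P078.NP.DomProj
import Vale.Agent.P078.NP.DomPos

/-!
# P078: below every nonzero projection of `M` there is a nonzero projection on which a given positive
functional is dominated by a vector functional
-/

namespace Vale.Agent.P078

open scoped InnerProductSpace

variable {H : Type*} [NormedAddCommGroup H] [InnerProductSpace ℂ H] [CompleteSpace H]
variable {M : StarSubalgebra ℂ (H →L[ℂ] H)} {ψ : (H →L[ℂ] H) →L[ℂ] ℂ}

/-- `e` is a projection of `M` on which `ψ` is dominated by the vector functional of `η`. -/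
def IsGood (M : StarSubalgebra ℂ (H →L[ℂ] H)) (ψ : (H →L[ℂ] H) →L[ℂ] ℂ) (e : H →L[ℂ] H)
    (η : H) : Prop :=
  e ∈ M ∧ IsStarProjection e ∧
    ∀ y ∈ M, 0 ≤ y → (ψ (e * y * e)).re ≤ (⟪η, (e * y * e) η⟫_ℂ).re

/-
PROOF SKETCH (subtask).  Pick a unit vector `v` with `e₀ v = v` (`exists_unit_in_range` in Tilt.lean has this; reprove or import),
`η := t • v` with `t^2 = (ψ e₀).re + 1`.  Apply `exists_dominated_proj`, then `re_nonneg_of_proj` to `θ := vecFun η η - ψ`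
(`(vecFun η η r).re = ‖r η‖^2` for a projection `r`, `proj_inner_self`).
-/
lemma exists_good (hM : IsVN M) (hψ : IsPosFunctional ψ) {e₀ : H →L[ℂ] H} (he₀M : e₀ ∈ M)
    (he₀p : IsStarProjection e₀) (he₀ : e₀ ≠ 0) :
    ∃ (e : H →L[ℂ] H) (η : H), IsGood M ψ e η ∧ e ≠ 0 ∧ e₀ * e = e := by
  obtain ⟨v, hv1, hv2⟩ : ∃ w : H, ‖w‖ = 1 ∧ e₀ w = w := by
    have hex : ∃ v, e₀ v ≠ 0 := by
      by_contra h
      apply he₀
      ext v
      by_contra hv
      exact h ⟨v, hv⟩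
    obtain ⟨v, hv⟩ := hex
    have hn : ‖e₀ v‖ ≠ 0 := norm_ne_zero_iff.mpr hv
    refine ⟨((‖e₀ v‖⁻¹ : ℝ) : ℂ) • e₀ v, ?_, ?_⟩
    · rw [norm_smul, Complex.norm_real, norm_inv, norm_norm, inv_mul_cancel₀ hn]
    · rw [map_smul, proj_apply_apply he₀p]
  have hs : 0 ≤ (ψ e₀).re := (hψ e₀ he₀p.nonneg).1
  obtain ⟨t, ht⟩ : ∃ t : ℝ, t = Real.sqrt ((ψ e₀).re + 1) := ⟨_, rfl⟩
  have ht0 : 0 ≤ t := by rw [ht]; exact Real.sqrt_nonneg _
  have ht2 : t ^ 2 = (ψ e₀).re + 1 := by rw [ht]; exact Real.sq_sqrt (by linarith)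
  have hlt : (ψ e₀).re < ‖e₀ ((t : ℂ) • v)‖ ^ 2 := by
    rw [map_smul, hv2, norm_smul, Complex.norm_real, hv1, mul_one, Real.norm_of_nonneg ht0, ht2]
    linarith
  obtain ⟨e, heM, hep, he0, hee, hdom⟩ :=
    exists_dominated_proj hM hψ he₀M he₀p ((t : ℂ) • v) hlt
  refine ⟨e, (t : ℂ) • v, ⟨heM, hep, ?_⟩, he0, hee⟩
  have h1 := re_nonneg_of_proj hM (vecFun ((t : ℂ) • v) ((t : ℂ) • v) - ψ) heM hep (by
    intro r hrM hrp her
    have h2 := hdom r hrM hrp her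
    have h3 : ((vecFun ((t : ℂ) • v) ((t : ℂ) • v) - ψ) r).re
        = ‖r ((t : ℂ) • v)‖ ^ 2 - (ψ r).re := by
      show (vecFun ((t : ℂ) • v) ((t : ℂ) • v) r - ψ r).re = _
      rw [Complex.sub_re, vecFun_apply, proj_inner_self hrp, Complex.ofReal_re]
    rw [h3]
    linarith)
  intro y hyM hy
  have h4 := h1 y hyM hy
  have h5 : ((vecFun ((t : ℂ) • v) ((t : ℂ) • v) - ψ) (e * y * e)).re
      = (⟪(t : ℂ) • v, (e * y * e) ((t : ℂ) • v)⟫_ℂ).re - (ψ (e * y * e)).re := by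
    show (vecFun ((t : ℂ) • v) ((t : ℂ) • v) (e * y * e) - ψ (e * y * e)).re = _
    rw [Complex.sub_re, vecFun_apply]
  rw [h5] at h4
  linarith

/-
PROOF SKETCH (subtask).  Cauchy-Schwarz (`IsPosFunctional.cauchy_schwarz`) with `a := m * e`, `b := star b₀`:
`‖ψ (b₀ * (m * e))‖^2 ≤ (ψ (e * (star m * m) * e)).re * (ψ (b₀ * star b₀)).re`, and goodness with `y := star m * m` gives
`(ψ (e * (star m * m) * e)).re ≤ re ⟪η, e (star m) m e η⟫ = ‖m (e η)‖^2`.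
-/
lemma IsGood.bound (hψ : IsPosFunctional ψ) {e : H →L[ℂ] H} {η : H} (h : IsGood M ψ e η)
    (b₀ : H →L[ℂ] H) {m : H →L[ℂ] H} (hm : m ∈ M) :
    ‖ψ (b₀ * m * e)‖ ^ 2 ≤ (ψ (b₀ * star b₀)).re * ‖m (e η)‖ ^ 2 := by
  obtain ⟨_, hep, hdom⟩ := h
  have h1 := hψ.cauchy_schwarz (m * e) (star b₀)
  have e1 : star (star b₀) * (m * e) = b₀ * m * e := by rw [star_star, mul_assoc]
  have e2 : star (m * e) * (m * e) = e * (star m * m) * e := by
    rw [star_mul, hep.isSelfAdjoint.star_eq]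
    simp only [mul_assoc]
  have e3 : star (star b₀) * star b₀ = b₀ * star b₀ := by rw [star_star]
  rw [e1, e2, e3] at h1
  have h2 := hdom (star m * m) (mul_mem (star_mem hm) hm) (star_mul_self_nonneg m)
  have h3 : (⟪η, (e * (star m * m) * e) η⟫_ℂ).re = ‖m (e η)‖ ^ 2 := by
    have e4 : (e * (star m * m) * e) η = e ((star m) (m (e η))) := rfl
    rw [e4, ← inner_sa hep.isSelfAdjoint, ContinuousLinearMap.star_eq_adjoint,
      ContinuousLinearMap.adjoint_inner_right, inner_self_eq_norm_sq_to_K]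
    norm_cast
  rw [h3] at h2
  have h4 : 0 ≤ (ψ (b₀ * star b₀)).re := (hψ _ (mul_star_self_nonneg b₀)).1
  calc ‖ψ (b₀ * m * e)‖ ^ 2 ≤ (ψ (e * (star m * m) * e)).re * (ψ (b₀ * star b₀)).re := h1
    _ ≤ ‖m (e η)‖ ^ 2 * (ψ (b₀ * star b₀)).re := mul_le_mul_of_nonneg_right h2 h4
    _ = (ψ (b₀ * star b₀)).re * ‖m (e η)‖ ^ 2 := mul_comm _ _

end Vale.Agent.P078
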