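import Vale.Agent.P078.NP.Dominate

/-!
# P078: a maximal orthogonal family of good projections
-/

namespace Vale.Agent.P078

open scoped InnerProductSpace

universe u

variable {H : Type u} [NormedAddCommGroup H] [InnerProductSpace ℂ H] [CompleteSpace H]
variable {M : StarSubalgebra ℂ (H →L[ℂ] H)} {ψ : (H →L[ℂ] H) →L[ℂ] ℂ}

/-- An orthogonal family of good projections with strong sum `1`. -/
structure IsGoodFamily (M : StarSubalgebra ℂ (H →L[ℂ] H)) (ψ : (H →L[ℂ] H) →L[ℂ] ℂ) {J : Type*}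
    (p : J → (H →L[ℂ] H)) (η : J → H) : Prop where
  good : ∀ j, IsGood M ψ (p j) (η j)
  orth : ∀ j k, j ≠ k → p j * p k = 0
  conv : ∀ (ξ : H) (δ : ℝ), 0 < δ → ∃ Λ : Finset J, ∀ Λ' : Finset J, Λ ⊆ Λ' →
    ‖(1 - ∑ j ∈ Λ', p j) ξ‖ < δ

/-
PROOF SKETCH (subtask).  `exists_maximal_orthogonal (fun p => ∃ η, IsGood M ψ p η)` gives `𝓕`; `exists_sup` gives `P`.  If `P ≠ 1` then
`1 - P` is a nonzero projection of `M`, `exists_good` gives a nonzero good `e` with `(1 - P) * e = e`, so `e * p = e * (1 - P) * p = 0` for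
`p ∈ 𝓕`, contradicting maximality.  So `P = 1`.  Take `J := ↥𝓕`, `p := Subtype.val`, choose `η`.  For `conv`, transport the finite sets:
from `Λ ⊆ 𝓕` (a finset of operators) build the finset of the subtype (`Finset.subtype` / `Finset.attach`), and for `Λ'` a finset of the subtype use
`Λ'.map (Function.Embedding.subtype _)` and `Finset.sum_map`.
-/
theorem exists_good_family (hM : IsVN M) (hψ : IsPosFunctional ψ) :
    ∃ (J : Type u) (p : J → (H →L[ℂ] H)) (η : J → H), IsGoodFamily M ψ p η := by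
  classical
  obtain ⟨𝓕, h1, h2, h3⟩ := exists_maximal_orthogonal (fun p => ∃ η, IsGood M ψ p η)
  obtain ⟨P, hPM, hPp, hPabs, -, hPconv⟩ := exists_sup hM 𝓕 (fun p hp => by
      obtain ⟨-, -, η, hη⟩ := h1 p hp
      exact ⟨hη.1, hη.2.1⟩) h2
  have hP1 : P = 1 := by
    by_contra hne
    have hQp : IsStarProjection (1 - P) := hPp.one_sub
    have hQM : 1 - P ∈ M := sub_mem (one_mem M) hPM
    have hQ0 : 1 - P ≠ 0 := fun h => hne (sub_eq_zero.mp h).symm
    obtain ⟨e, η, hgood, he0, hee⟩ := exists_good hM hψ hQM hQp hQ0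
    refine h3 e hgood.2.1 he0 ⟨η, hgood⟩ ?_
    intro p hp
    have hes : e * (1 - P) = e := by
      have h := congrArg star hee
      rw [star_mul, hgood.2.1.isSelfAdjoint.star_eq, hQp.isSelfAdjoint.star_eq] at h
      exact h
    calc e * p = e * (1 - P) * p := by rw [hes]
      _ = e * (p - P * p) := by rw [mul_assoc, sub_mul, one_mul]
      _ = 0 := by rw [hPabs p hp, sub_self, mul_zero]
  rw [hP1] at hPconv
  have hex : ∀ j : ↥𝓕, ∃ η, IsGood M ψ j.1 η := fun j => (h1 j.1 j.2).2.2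
  choose η hη using hex
  refine ⟨↥𝓕, Subtype.val, η, ⟨hη, ?_, ?_⟩⟩
  · intro j k hjk
    exact h2 j.1 j.2 k.1 k.2 (fun h => hjk (Subtype.ext h))
  · intro ξ δ hδ
    obtain ⟨Λ, hΛ, hΛ'⟩ := hPconv ξ δ hδ
    refine ⟨Λ.subtype (· ∈ 𝓕), fun Λ' hsub => ?_⟩
    have h := hΛ' (Λ'.map (Function.Embedding.subtype (· ∈ 𝓕))) ?_ ?_
    · rw [Finset.sum_map] at h
      exact h
    · intro q hq
      have hq𝓕 : q ∈ 𝓕 := hΛ hq
      rw [Finset.mem_map]
      refine ⟨⟨q, hq𝓕⟩, hsub ?_, rfl⟩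
      rw [Finset.mem_subtype]
      exact hq
    · intro q hq
      rw [Finset.mem_coe, Finset.mem_map] at hq
      obtain ⟨j, -, rfl⟩ := hq
      exact j.2

end Vale.Agent.P078
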