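import Vale.Agent.P078.DefsCentral

/-!
# P078: a positive functional from the Hahn-Banach theorem
-/

namespace Vale.Agent.P078

variable {H : Type*} [NormedAddCommGroup H] [InnerProductSpace ℂ H] [CompleteSpace H]

/-
PROOF SKETCH (subtask).  Let `U := {T | ∃ c > 0, T + star T ≤ (2 (κ₁ - c)) • 1}` and `D := {m + y | m ∈ C, y ∈ Y}`.
* `U` is convex, and open: if `T ∈ U` with `c` and `‖T' - T‖ < c / 2` then `(T' + star T') - (T + star T)` is self-adjoint of norm `< c`, hence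
  `≤ c • 1` (`IsSelfAdjoint.le_algebraMap_norm_self`), so `T' ∈ U` with `c / 2`.
* `D` is convex; `U` and `D` are disjoint by `hsep`.
* `RCLike.geometric_hahn_banach_open` (with `𝕜 := ℂ`) gives `f : (H →L[ℂ] H) →L[ℂ] ℂ` and `u` with `re (f a) < u` on `U`, `u ≤ re (f b)` on `D`.
* `0 ∈ U`, so `0 < u`.  For `y ≥ 0` and real `t > 0`: `-(t y) ∈ U`, so `- t re (f y) < u` for all `t > 0`, hence `re (f y) ≥ 0`.
  For `y ≥ 0` and real `t`: `T := (t * I) • y` has `T + star T = 0`, so `T ∈ U` and `- t im (f y) < u` for all real `t`, hence `im (f y) = 0`.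
* For `y ∈ Y` and real `t`: `1 + t y ∈ D`, so `u ≤ re (f 1) + t re (f y)` for all real `t`, hence `re (f y) = 0`.
* For `m ∈ C`: `m = m + 0 ∈ D`.  Take `ψ := f`, `κ := u`.
-/
theorem exists_pos_functional_of_sep (C Y : Set (H →L[ℂ] H)) (hC : Convex ℝ C)
    (h1C : (1 : H →L[ℂ] H) ∈ C) (hY0 : (0 : H →L[ℂ] H) ∈ Y)
    (hYadd : ∀ y ∈ Y, ∀ y' ∈ Y, y + y' ∈ Y) (hYsmul : ∀ t : ℝ, ∀ y ∈ Y, (t : ℂ) • y ∈ Y)
    {κ₁ : ℝ} (hκ₁ : 0 < κ₁)
    (hsep : ∀ m ∈ C, ∀ y ∈ Y, ∀ c : ℝ, 0 < c →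
      ¬ ((m + y) + star (m + y) ≤ ((2 * (κ₁ - c) : ℝ) : ℂ) • (1 : H →L[ℂ] H))) :
    ∃ (ψ : (H →L[ℂ] H) →L[ℂ] ℂ) (κ : ℝ), 0 < κ ∧ IsPosFunctional ψ ∧
      (∀ y ∈ Y, (ψ y).re = 0) ∧ ∀ m ∈ C, κ ≤ (ψ m).re := by
  classical
  set U : Set (H →L[ℂ] H) :=
    {T | ∃ c : ℝ, 0 < c ∧ T + star T ≤ (2 * (κ₁ - c)) • (1 : H →L[ℂ] H)} with hU
  set D : Set (H →L[ℂ] H) := {T | ∃ m ∈ C, ∃ y ∈ Y, T = m + y} with hD
  have hmono : ∀ {r s : ℝ}, r ≤ s → r • (1 : H →L[ℂ] H) ≤ s • (1 : H →L[ℂ] H) := by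
    intro r s h
    exact smul_le_smul_of_nonneg_right h zero_le_one
  have hUconv : Convex ℝ U := by
    rintro T₁ ⟨c₁, hc₁, h₁⟩ T₂ ⟨c₂, hc₂, h₂⟩ a b ha hb hab
    refine ⟨min c₁ c₂, lt_min hc₁ hc₂, ?_⟩
    have e : a • T₁ + b • T₂ + star (a • T₁ + b • T₂)
        = a • (T₁ + star T₁) + b • (T₂ + star T₂) := by
      simp only [star_add, star_smul, smul_add, star_trivial]
      abel
    rw [e]
    have h₁' : T₁ + star T₁ ≤ (2 * (κ₁ - min c₁ c₂)) • (1 : H →L[ℂ] H) :=
      h₁.trans (hmono (by have := min_le_left c₁ c₂; linarith))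
    have h₂' : T₂ + star T₂ ≤ (2 * (κ₁ - min c₁ c₂)) • (1 : H →L[ℂ] H) :=
      h₂.trans (hmono (by have := min_le_right c₁ c₂; linarith))
    calc a • (T₁ + star T₁) + b • (T₂ + star T₂)
        ≤ a • ((2 * (κ₁ - min c₁ c₂)) • (1 : H →L[ℂ] H))
          + b • ((2 * (κ₁ - min c₁ c₂)) • (1 : H →L[ℂ] H)) :=
          add_le_add (smul_le_smul_of_nonneg_left h₁' ha) (smul_le_smul_of_nonneg_left h₂' hb)
      _ = (2 * (κ₁ - min c₁ c₂)) • (1 : H →L[ℂ] H) := by rw [← add_smul, hab, one_smul]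
  have hUopen : IsOpen U := by
    rw [Metric.isOpen_iff]
    rintro T ⟨c, hc, h⟩
    refine ⟨c / 2, by positivity, ?_⟩
    intro T' hT'
    rw [Metric.mem_ball, dist_eq_norm] at hT'
    refine ⟨c / 2, by positivity, ?_⟩
    have hS : IsSelfAdjoint ((T' - T) + star (T' - T)) := IsSelfAdjoint.add_star_self _
    have hSn : ‖(T' - T) + star (T' - T)‖ ≤ c := by
      calc ‖(T' - T) + star (T' - T)‖ ≤ ‖T' - T‖ + ‖star (T' - T)‖ := norm_add_le _ _
        _ = 2 * ‖T' - T‖ := by rw [norm_star]; ring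
        _ ≤ c := by linarith
    have hS1 : (T' - T) + star (T' - T) ≤ c • (1 : H →L[ℂ] H) := by
      refine hS.le_algebraMap_norm_self.trans ?_
      rw [Algebra.algebraMap_eq_smul_one]
      exact hmono hSn
    have e : T' + star T' = (T + star T) + ((T' - T) + star (T' - T)) := by
      rw [star_sub]; abel
    rw [e]
    calc (T + star T) + ((T' - T) + star (T' - T))
        ≤ (2 * (κ₁ - c)) • (1 : H →L[ℂ] H) + c • (1 : H →L[ℂ] H) := add_le_add h hS1
      _ = (2 * (κ₁ - c / 2)) • (1 : H →L[ℂ] H) := by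
          rw [← add_smul]; congr 1; ring
  have hDconv : Convex ℝ D := by
    rintro _ ⟨m, hm, y, hy, rfl⟩ _ ⟨m', hm', y', hy', rfl⟩ a b ha hb hab
    refine ⟨a • m + b • m', hC hm hm' ha hb hab, a • y + b • y', ?_, ?_⟩
    · have h1 := hYsmul a y hy
      have h2 := hYsmul b y' hy'
      rw [Complex.coe_smul] at h1 h2
      exact hYadd _ h1 _ h2
    · simp only [smul_add]; abel
  have hdisj : Disjoint U D := by
    rw [Set.disjoint_left]
    rintro _ ⟨c, hc, h⟩ ⟨m, hm, y, hy, rfl⟩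
    apply hsep m hm y hy c hc
    rw [Complex.coe_smul]
    exact h
  obtain ⟨f, u, hfU, hfD⟩ := RCLike.geometric_hahn_banach_open (𝕜 := ℂ) hUconv hUopen hDconv hdisj
  have hfU' : ∀ a ∈ U, (f a).re < u := hfU
  have hfD' : ∀ b ∈ D, u ≤ (f b).re := hfD
  -- elements with nonpositive real part belong to `U`
  have hUmem : ∀ T : H →L[ℂ] H, T + star T ≤ 0 → T ∈ U := by
    intro T hT
    refine ⟨κ₁ / 2, by positivity, hT.trans ?_⟩
    have : (0 : ℝ) • (1 : H →L[ℂ] H) ≤ (2 * (κ₁ - κ₁ / 2)) • (1 : H →L[ℂ] H) :=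
      hmono (by linarith)
    rwa [zero_smul] at this
  have hu : 0 < u := by
    have := hfU' 0 (hUmem 0 (by simp))
    simpa using this
  refine ⟨f, u, hu, ?_, ?_, ?_⟩
  · intro y hy
    have hsa : star y = y := (IsSelfAdjoint.of_nonneg hy).star_eq
    constructor
    · by_contra hneg
      push Not at hneg
      set t : ℝ := u / (-(f y).re) with ht
      have htpos : 0 < t := div_pos hu (by linarith)
      have hmem : -(t • y) ∈ U := by
        apply hUmem
        rw [star_neg, star_smul, hsa, star_trivial]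
        have : 0 ≤ t • y := smul_nonneg htpos.le hy
        have h2 : -(t • y) + -(t • y) = -((t • y) + (t • y)) := by abel
        rw [h2]
        exact neg_nonpos.2 (add_nonneg this this)
      have h1 := hfU' _ hmem
      have h3 : (f (-(t • y))).re = -(t * (f y).re) := by
        rw [map_neg, ← Complex.coe_smul, map_smul]
        simp
      rw [h3, ht] at h1
      have h4 : -(u / (-(f y).re) * (f y).re) = u := by
        have : (f y).re ≠ 0 := hneg.ne
        field_simp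
      rw [h4] at h1
      exact lt_irrefl _ h1
    · by_contra him
      set t : ℝ := -(u / (f y).im) with ht
      have hmem : ((t : ℂ) * Complex.I) • y ∈ U := by
        apply hUmem
        rw [star_smul, hsa]
        have : star ((t : ℂ) * Complex.I) = -((t : ℂ) * Complex.I) := by
          simp
        rw [this, neg_smul, add_neg_cancel]
      have h1 := hfU' _ hmem
      have h3 : (f (((t : ℂ) * Complex.I) • y)).re = -(t * (f y).im) := by
        rw [map_smul]
        simp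
      rw [h3, ht] at h1
      have h4 : -(-(u / (f y).im) * (f y).im) = u := by
        field_simp
      rw [h4] at h1
      exact lt_irrefl _ h1
  · intro y hy
    by_contra hne
    set t : ℝ := (u - (f 1).re - 1) / (f y).re with ht
    have hmem : (1 : H →L[ℂ] H) + (t : ℂ) • y ∈ D := ⟨1, h1C, _, hYsmul t y hy, rfl⟩
    have h1 := hfD' _ hmem
    have h3 : (f ((1 : H →L[ℂ] H) + (t : ℂ) • y)).re = (f 1).re + t * (f y).re := by
      rw [map_add, map_smul]
      simp
    rw [h3, ht] at h1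
    have h4 : (u - (f 1).re - 1) / (f y).re * (f y).re = u - (f 1).re - 1 := by
      field_simp
    rw [h4] at h1
    linarith
  · intro m hm
    exact hfD' m ⟨m, hm, 0, hY0, by simp⟩

end Vale.Agent.P078
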