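import Vale.Agent.P078.NP.Family

/-!
# P078: the compressions of `ψ` by the partial sums of a good family converge in norm
-/

namespace Vale.Agent.P078

open scoped InnerProductSpace
open Filter Topology

variable {H : Type*} [NormedAddCommGroup H] [InnerProductSpace ℂ H] [CompleteSpace H]
variable {M : StarSubalgebra ℂ (H →L[ℂ] H)} {ψ : (H →L[ℂ] H) →L[ℂ] ℂ}
variable {J : Type*} {p : J → (H →L[ℂ] H)} {η : J → H}

/-- The partial sums of the family. -/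
noncomputable def pSum (p : J → (H →L[ℂ] H)) (Λ : Finset J) : H →L[ℂ] H := ∑ j ∈ Λ, p j

namespace IsGoodFamily

lemma pSum_mem (h : IsGoodFamily M ψ p η) (Λ : Finset J) : pSum p Λ ∈ M :=
  sum_mem fun j _ => (h.good j).1

lemma pSum_proj (h : IsGoodFamily M ψ p η) (Λ : Finset J) : IsStarProjection (pSum p Λ) :=
  finset_sum_proj p Λ (fun j _ => (h.good j).2.1) (fun j _ k _ hjk => h.orth j k hjk)

/-
PROOF SKETCH (subtask).  For `Λ ⊆ Λ'`: `pSum p Λ' - pSum p Λ = ∑ j ∈ Λ' \ Λ, p j` (`Finset.sum_sdiff`) is a projection (`finset_sum_proj`).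
-/
lemma pSum_sub_proj [DecidableEq J] (h : IsGoodFamily M ψ p η) {Λ Λ' : Finset J} (hΛ : Λ ⊆ Λ') :
    IsStarProjection (pSum p Λ' - pSum p Λ) := by
  have h1 : pSum p Λ' - pSum p Λ = ∑ j ∈ Λ' \ Λ, p j := by
    unfold pSum
    rw [← Finset.sum_sdiff hΛ, add_sub_cancel_right]
  rw [h1]
  exact finset_sum_proj p _ (fun j _ => (h.good j).2.1) (fun j _ k _ hjk => h.orth j k hjk)

/-
PROOF SKETCH (subtask).  `t Λ := (ψ (pSum p Λ)).re` is monotone in `Λ` (`pSum_sub_proj`, projections are `≥ 0`) and bounded by `(ψ 1).re`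
(`1 - pSum` is a projection).  Take `Λ₀` with `t Λ₀ > sup t - ε`.
-/
lemma exists_tail_small (h : IsGoodFamily M ψ p η) (hψ : IsPosFunctional ψ) {ε : ℝ} (hε : 0 < ε) :
    ∃ Λ₀ : Finset J, ∀ Λ Λ' : Finset J, Λ₀ ⊆ Λ → Λ ⊆ Λ' →
      (ψ (pSum p Λ' - pSum p Λ)).re < ε := by
  classical
  have hmono : ∀ Λ Λ' : Finset J, Λ ⊆ Λ' → (ψ (pSum p Λ)).re ≤ (ψ (pSum p Λ')).re := by
    intro Λ Λ' hΛ
    have h1 := (hψ _ (h.pSum_sub_proj hΛ).nonneg).1
    rw [map_sub, Complex.sub_re] at h1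
    linarith
  have hbdd : BddAbove (Set.range fun Λ : Finset J => (ψ (pSum p Λ)).re) := by
    refine ⟨(ψ 1).re, ?_⟩
    rintro _ ⟨Λ, rfl⟩
    have h1 := (hψ _ (h.pSum_proj Λ).one_sub.nonneg).1
    rw [map_sub, Complex.sub_re] at h1
    show (ψ (pSum p Λ)).re ≤ (ψ 1).re
    linarith
  obtain ⟨_, ⟨Λ₀, rfl⟩, hΛ₀⟩ := exists_lt_of_lt_csSup (Set.range_nonempty _)
    (show sSup (Set.range fun Λ : Finset J => (ψ (pSum p Λ)).re) - ε
      < sSup (Set.range fun Λ : Finset J => (ψ (pSum p Λ)).re) by linarith)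
  refine ⟨Λ₀, fun Λ Λ' h0 hΛ => ?_⟩
  have h1 := hmono Λ₀ Λ h0
  have h2 : (ψ (pSum p Λ')).re ≤ sSup (Set.range fun Λ : Finset J => (ψ (pSum p Λ)).re) :=
    le_csSup hbdd ⟨Λ', rfl⟩
  rw [map_sub, Complex.sub_re]
  simp only at hΛ₀
  linarith

/-
PROOF SKETCH (subtask).  With `E = pSum p Λ`, `E' = pSum p Λ'`, `G = E' - E` (a projection):
`E' T E' - E T E = G T E' + E T G`.  Cauchy-Schwarz: `‖ψ (G * (T * E'))‖^2 ≤ (ψ (star (T E') (T E'))).re (ψ G).re ≤ ‖T‖^2 (ψ 1).re (ψ G).re`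
and similarly for `ψ (E T G) = ψ (star (star T * E) * G)`.  (`star X * X ≤ ‖X‖^2 1`, `IsPosFunctional.re_mono`.)
-/
lemma norm_compFun_sub_le (h : IsGoodFamily M ψ p η) (hψ : IsPosFunctional ψ) {Λ Λ' : Finset J}
    (hΛ : Λ ⊆ Λ') :
    ‖compFun ψ (pSum p Λ') (pSum p Λ') - compFun ψ (pSum p Λ) (pSum p Λ)‖
      ≤ 2 * Real.sqrt ((ψ 1).re) * Real.sqrt ((ψ (pSum p Λ' - pSum p Λ)).re) := by
  classical
  set E := pSum p Λ with hE
  set E' := pSum p Λ' with hE'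
  set G := E' - E with hG
  have hEp : IsStarProjection E := h.pSum_proj Λ
  have hE'p : IsStarProjection E' := h.pSum_proj Λ'
  have hGp : IsStarProjection G := h.pSum_sub_proj hΛ
  have h1nn : 0 ≤ (ψ 1).re := (hψ 1 zero_le_one).1
  have hGnn : 0 ≤ (ψ G).re := (hψ G hGp.nonneg).1
  have hsq : ∀ X : H →L[ℂ] H, (ψ (star X * X)).re ≤ (ψ 1).re * ‖X‖ ^ 2 := by
    intro X
    calc (ψ (star X * X)).re ≤ ‖ψ (star X * X)‖ := Complex.re_le_norm _
      _ ≤ (ψ 1).re * ‖star X * X‖ := hψ.norm_le _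
      _ = (ψ 1).re * ‖X‖ ^ 2 := by rw [CStarRing.norm_star_mul_self, sq]
  have hGG : star G * G = G := by rw [hGp.isSelfAdjoint.star_eq, hGp.isIdempotentElem.eq]
  have hroot : ∀ (w : ℂ) (X : H →L[ℂ] H) (t : ℝ), 0 ≤ t → ‖X‖ ≤ t →
      ‖w‖ ^ 2 ≤ (ψ (star X * X)).re * (ψ G).re →
      ‖w‖ ≤ Real.sqrt ((ψ 1).re) * Real.sqrt ((ψ G).re) * t := by
    intro w X t ht hX hw
    have h2 : ‖w‖ ^ 2 ≤ (Real.sqrt ((ψ 1).re) * Real.sqrt ((ψ G).re) * t) ^ 2 := by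
      rw [mul_pow, mul_pow, Real.sq_sqrt h1nn, Real.sq_sqrt hGnn]
      calc ‖w‖ ^ 2 ≤ (ψ (star X * X)).re * (ψ G).re := hw
        _ ≤ ((ψ 1).re * ‖X‖ ^ 2) * (ψ G).re := by gcongr; exact hsq X
        _ ≤ ((ψ 1).re * t ^ 2) * (ψ G).re := by gcongr
        _ = (ψ 1).re * (ψ G).re * t ^ 2 := by ring
    exact le_of_sq_le_sq h2 (by positivity)
  apply ContinuousLinearMap.opNorm_le_bound _ (by positivity)
  intro T
  have hdec : E' * T * E' - E * T * E = G * (T * E') + E * T * G := by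
    rw [hG]
    noncomm_ring
  have hT1 : ‖T * E'‖ ≤ ‖T‖ := by
    calc ‖T * E'‖ ≤ ‖T‖ * ‖E'‖ := norm_mul_le _ _
      _ ≤ ‖T‖ * 1 := by gcongr; exact IsStarProjection.norm_le E' hE'p
      _ = ‖T‖ := mul_one _
  have hT2 : ‖star T * E‖ ≤ ‖T‖ := by
    calc ‖star T * E‖ ≤ ‖star T‖ * ‖E‖ := norm_mul_le _ _
      _ ≤ ‖star T‖ * 1 := by gcongr; exact IsStarProjection.norm_le E hEp
      _ = ‖T‖ := by rw [mul_one, norm_star]
  have b1 : ‖ψ (G * (T * E'))‖ ≤ Real.sqrt ((ψ 1).re) * Real.sqrt ((ψ G).re) * ‖T‖ := by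
    apply hroot _ (T * E') _ (norm_nonneg _) hT1
    have := hψ.cauchy_schwarz (T * E') G
    rwa [hGG, hGp.isSelfAdjoint.star_eq] at this
  have b2 : ‖ψ (E * T * G)‖ ≤ Real.sqrt ((ψ 1).re) * Real.sqrt ((ψ G).re) * ‖T‖ := by
    apply hroot _ (star T * E) _ (norm_nonneg _) hT2
    have := hψ.cauchy_schwarz G (star T * E)
    rw [hGG] at this
    have e1 : star (star T * E) = E * T := by
      rw [star_mul, star_star, hEp.isSelfAdjoint.star_eq]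
    rw [e1] at this ⊢
    rw [mul_comm]
    exact this
  show ‖(compFun ψ E' E' - compFun ψ E E) T‖ ≤ _
  rw [ContinuousLinearMap.sub_apply, compFun_apply, compFun_apply, ← map_sub, hdec, map_add]
  calc ‖ψ (G * (T * E')) + ψ (E * T * G)‖ ≤ ‖ψ (G * (T * E'))‖ + ‖ψ (E * T * G)‖ :=
        norm_add_le _ _
    _ ≤ 2 * Real.sqrt ((ψ 1).re) * Real.sqrt ((ψ G).re) * ‖T‖ := by linarith

/-
PROOF SKETCH (subtask).  By `exists_tail_small` and `norm_compFun_sub_le` the net is Cauchy (`Metric.cauchySeq_iff'` or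
`cauchySeq_of_le_tendsto_0`-style; compare any two `Λ, Λ' ⊇ Λ₀` through `Λ ∪ Λ'` or through `Λ₀`); the dual space is complete:
`cauchySeq_tendsto_of_complete`.
-/
lemma exists_limit [DecidableEq J] (h : IsGoodFamily M ψ p η) (hψ : IsPosFunctional ψ) :
    ∃ φ : (H →L[ℂ] H) →L[ℂ] ℂ,
      Tendsto (fun Λ : Finset J => compFun ψ (pSum p Λ) (pSum p Λ)) atTop (𝓝 φ) := by
  apply cauchySeq_tendsto_of_complete
  rw [Metric.cauchySeq_iff']
  intro ε hε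
  set c := 2 * Real.sqrt ((ψ 1).re) with hc
  have hc0 : 0 ≤ c := by positivity
  obtain ⟨Λ₀, hΛ₀⟩ := h.exists_tail_small hψ (ε := (ε / (c + 1)) ^ 2) (by positivity)
  refine ⟨Λ₀, fun Λ hΛ => ?_⟩
  have hsub : Λ₀ ⊆ Λ := hΛ
  rw [dist_eq_norm]
  have h1 := h.norm_compFun_sub_le hψ hsub
  have h2 := hΛ₀ Λ₀ Λ subset_rfl hsub
  have h3 : Real.sqrt ((ψ (pSum p Λ - pSum p Λ₀)).re) < ε / (c + 1) := by
    rw [Real.sqrt_lt' (by positivity)]
    exact h2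
  have h4 : c * (ε / (c + 1)) < ε := by
    rw [mul_div_assoc', div_lt_iff₀ (by positivity)]
    nlinarith
  calc ‖compFun ψ (pSum p Λ) (pSum p Λ) - compFun ψ (pSum p Λ₀) (pSum p Λ₀)‖
      ≤ c * Real.sqrt ((ψ (pSum p Λ - pSum p Λ₀)).re) := h1
    _ ≤ c * (ε / (c + 1)) := by gcongr
    _ < ε := h4

end IsGoodFamily

end Vale.Agent.P078
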