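import Vale.Agent.P078.NP.Limit

/-!
# P078: normality and positivity pass to the limit
-/

namespace Vale.Agent.P078

open scoped InnerProductSpace
open Filter Topology

variable {H : Type*} [NormedAddCommGroup H] [InnerProductSpace ℂ H] [CompleteSpace H]
variable {M : StarSubalgebra ℂ (H →L[ℂ] H)} {ψ : (H →L[ℂ] H) →L[ℂ] ℂ}
variable {J : Type*} {p : J → (H →L[ℂ] H)} {η : J → H}

namespace IsGoodFamily

lemma compFun_normal (h : IsGoodFamily M ψ p η) (hψ : IsPosFunctional ψ) (Λ : Finset J) :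
    IsNormalOn M (compFun ψ (pSum p Λ) (pSum p Λ)) := by
  classical
  intro ε hε
  set E := pSum p Λ with hE
  set C : ℝ := (ψ (E * star E)).re with hC
  have hC0 : 0 ≤ C := (hψ _ (mul_star_self_nonneg E)).1
  set D : ℝ := Real.sqrt C * (Λ.card : ℝ) + 1 with hD
  have hD0 : 0 < D := by positivity
  refine ⟨Λ.image (fun j => p j (η j)), ε / D, by positivity, ?_⟩
  intro m hm _ hF
  rw [compFun_apply]
  have e1 : E * m * E = ∑ j ∈ Λ, E * m * p j := by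
    have e0 : E = ∑ j ∈ Λ, p j := rfl
    calc E * m * E = E * m * ∑ j ∈ Λ, p j := by rw [← e0]
      _ = ∑ j ∈ Λ, E * m * p j := Finset.mul_sum _ _ _
  rw [e1, map_sum]
  have hb : ∀ j ∈ Λ, ‖ψ (E * m * p j)‖ ≤ Real.sqrt C * (ε / D) := by
    intro j hj
    have h1 := (h.good j).bound hψ E hm
    have h2 : ‖m (p j (η j))‖ < ε / D := hF _ (Finset.mem_image_of_mem _ hj)
    have h3 : ‖ψ (E * m * p j)‖ ^ 2 ≤ (Real.sqrt C * (ε / D)) ^ 2 := by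
      rw [mul_pow, Real.sq_sqrt hC0]
      refine h1.trans ?_
      apply mul_le_mul_of_nonneg_left _ hC0
      exact pow_le_pow_left₀ (norm_nonneg _) h2.le 2
    exact (pow_le_pow_iff_left₀ (norm_nonneg _) (by positivity) two_ne_zero).1 h3
  calc ‖∑ j ∈ Λ, ψ (E * m * p j)‖ ≤ ∑ j ∈ Λ, ‖ψ (E * m * p j)‖ := norm_sum_le _ _
    _ ≤ ∑ _j ∈ Λ, Real.sqrt C * (ε / D) := Finset.sum_le_sum hb
    _ = (Real.sqrt C * (Λ.card : ℝ)) * (ε / D) := by
        rw [Finset.sum_const, nsmul_eq_mul]; ring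
    _ < D * (ε / D) := by
        apply mul_lt_mul_of_pos_right _ (by positivity)
        rw [hD]; linarith
    _ = ε := by field_simp

end IsGoodFamily

lemma isNormalOn_of_tendsto {ι : Type*} {l : Filter ι} [l.NeBot] {Φ : ι → (H →L[ℂ] H) →L[ℂ] ℂ}
    {φ : (H →L[ℂ] H) →L[ℂ] ℂ} (hΦ : ∀ i, IsNormalOn M (Φ i)) (hlim : Tendsto Φ l (𝓝 φ)) :
    IsNormalOn M φ := by
  intro ε hε
  have h1 : ∀ᶠ i in l, dist (Φ i) φ < ε / 2 :=
    (Metric.tendsto_nhds.1 hlim) (ε / 2) (by positivity)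
  obtain ⟨i, hi⟩ := h1.exists
  obtain ⟨F, δ, hδ, hF⟩ := hΦ i (ε / 2) (by positivity)
  refine ⟨F, δ, hδ, ?_⟩
  intro m hm hm1 hmF
  have h2 := hF m hm hm1 hmF
  have h3 : ‖(φ - Φ i) m‖ ≤ ‖φ - Φ i‖ * ‖m‖ := (φ - Φ i).le_opNorm m
  have h4 : ‖φ - Φ i‖ < ε / 2 := by
    rw [← dist_eq_norm, dist_comm]; exact hi
  have h5 : ‖φ - Φ i‖ * ‖m‖ ≤ ‖φ - Φ i‖ := by
    calc ‖φ - Φ i‖ * ‖m‖ ≤ ‖φ - Φ i‖ * 1 := mul_le_mul_of_nonneg_left hm1 (norm_nonneg _)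
      _ = ‖φ - Φ i‖ := mul_one _
  have e : φ m = Φ i m + (φ - Φ i) m := by
    rw [sub_apply]; ring
  calc ‖φ m‖ = ‖Φ i m + (φ - Φ i) m‖ := by rw [← e]
    _ ≤ ‖Φ i m‖ + ‖(φ - Φ i) m‖ := norm_add_le _ _
    _ < ε / 2 + ε / 2 := by linarith
    _ = ε := by ring

lemma isPosFunctional_of_tendsto {ι : Type*} {l : Filter ι} [l.NeBot]
    {Φ : ι → (H →L[ℂ] H) →L[ℂ] ℂ} {φ : (H →L[ℂ] H) →L[ℂ] ℂ} (hΦ : ∀ i, IsPosFunctional (Φ i))
    (hlim : Tendsto Φ l (𝓝 φ)) : IsPosFunctional φ := by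
  intro y hy
  have h1 : Tendsto (fun i => Φ i y) l (𝓝 (φ y)) :=
    ((ContinuousLinearMap.apply ℂ ℂ y).continuous.tendsto φ).comp hlim
  have hre : Tendsto (fun i => (Φ i y).re) l (𝓝 (φ y).re) :=
    (Complex.continuous_re.tendsto _).comp h1
  have him : Tendsto (fun i => (Φ i y).im) l (𝓝 (φ y).im) :=
    (Complex.continuous_im.tendsto _).comp h1
  refine ⟨ge_of_tendsto' hre fun i => (hΦ i y hy).1, ?_⟩
  have h0 : (fun i => (Φ i y).im) = fun _ => (0 : ℝ) := by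
    funext i; exact (hΦ i y hy).2
  rw [h0] at him
  exact tendsto_nhds_unique him tendsto_const_nhds |>.symm ▸ rfl

end Vale.Agent.P078
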