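import Vale.Agent.P078.NP.Compare
import Vale.Agent.P078.NP.Compare2
import Vale.Agent.P078.NP.LimitNormal

/-!
# P078: the normal part of a positive functional, relative to a von Neumann algebra `M`
-/

namespace Vale.Agent.P078

open scoped InnerProductSpace
open Filter Topology

variable {H : Type*} [NormedAddCommGroup H] [InnerProductSpace ℂ H] [CompleteSpace H]
variable {M : StarSubalgebra ℂ (H →L[ℂ] H)} {ψ : (H →L[ℂ] H) →L[ℂ] ℂ}

/-- Every positive functional `ψ` has a largest minorant `φ` that is normal on `M`, and the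
remainder is singular: `ψ q ≤ φ 1` for projections `q` of `M` arbitrarily close to `1`. -/
theorem exists_normal_part (hM : IsVN M) (hψ : IsPosFunctional ψ) :
    ∃ φ : (H →L[ℂ] H) →L[ℂ] ℂ, IsPosFunctional φ ∧ IsNormalOn M φ ∧
      (∀ y ∈ M, 0 ≤ y → (φ y).re ≤ (ψ y).re) ∧
      (∀ θ : (H →L[ℂ] H) →L[ℂ] ℂ, IsNormalOn M θ → (∀ y ∈ M, 0 ≤ y → (θ y).re ≤ (ψ y).re) →
        ∀ y ∈ M, 0 ≤ y → (θ y).re ≤ (φ y).re) ∧
      (∀ (F : Finset H) (δ : ℝ), 0 < δ → ∃ q ∈ M, IsStarProjection q ∧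
        (∀ ξ ∈ F, ‖(1 - q) ξ‖ < δ) ∧ (ψ q).re ≤ (φ 1).re) := by
  classical
  obtain ⟨J, p, η, h⟩ := exists_good_family hM hψ
  obtain ⟨φ, hlim⟩ := h.exists_limit hψ
  refine ⟨φ, ?_, ?_, h.limit_le hψ hlim, fun θ hθn hθψ => h.le_limit hψ hlim hθn hθψ,
    fun F δ hδ => h.mass hψ hlim F hδ⟩
  · apply isPosFunctional_of_tendsto _ hlim
    intro Λ
    have := hψ.compFun_pos (pSum p Λ)
    rwa [(h.pSum_proj Λ).isSelfAdjoint.star_eq] at this
  · exact isNormalOn_of_tendsto (fun Λ => h.compFun_normal hψ Λ) hlim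

end Vale.Agent.P078
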