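import Vale.Agent.P078.NP.Dyadic
import Vale.Agent.P078.VN.Pinch
import Vale.Agent.P078.VN.ThinExtra

/-!
# P078: if `A` is not thin, pinchings of almost-units of `M` have norm bounded below
-/

namespace Vale.Agent.P078

open scoped InnerProductSpace

variable {H : Type*} [NormedAddCommGroup H] [InnerProductSpace ℂ H] [CompleteSpace H]
variable {M A : StarSubalgebra ℂ (H →L[ℂ] H)}

/-
PROOF SKETCH (subtask).  `bisect_gen (1/2) h0 _` gives `e` with `0 ≤ m - (1/2) e ≤ 1/2`; `e ∈ M` by `hM` (whatever commutes with `M` commutes with `m`,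
hence with `e`).  Rearrange the two inequalities.
-/
lemma exists_half_cut (hM : IsVN M) {m : H →L[ℂ] H} (hmM : m ∈ M) (h0 : 0 ≤ m) (h1 : m ≤ 1) :
    ∃ q ∈ M, IsStarProjection q ∧ q ≤ (2 : ℂ) • m ∧ 1 - q ≤ (2 : ℂ) • (1 - m) := by
  have h1' : m ≤ ((2 * (1 / 2 : ℝ) : ℝ) : ℂ) • (1 : H →L[ℂ] H) := by
    have e : ((2 * (1 / 2 : ℝ) : ℝ) : ℂ) = 1 := by push_cast; norm_num
    rw [e, one_smul]
    exact h1
  obtain ⟨e, hep, hcomm, ha, hb⟩ := bisect_gen (1 / 2 : ℝ) h0 h1'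
  have hc : (((1 / 2 : ℝ) : ℝ) : ℂ) = (1 / 2 : ℂ) := by push_cast; norm_num
  rw [hc] at ha hb
  refine ⟨e, ?_, hep, ?_, ?_⟩
  · apply hM
    intro S hS
    exact hcomm S (hS m hmM)
  · rw [← sub_nonneg]
    have e1 : (2 : ℂ) • m - e = (m - (1 / 2 : ℂ) • e) + (m - (1 / 2 : ℂ) • e) := by
      module
    rw [e1]
    exact add_nonneg ha ha
  · rw [← sub_nonneg]
    have hb' : 0 ≤ (1 / 2 : ℂ) • (1 : H →L[ℂ] H) - (m - (1 / 2 : ℂ) • e) := sub_nonneg.2 hb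
    have e1 : (2 : ℂ) • (1 - m) - (1 - e)
        = ((1 / 2 : ℂ) • (1 : H →L[ℂ] H) - (m - (1 / 2 : ℂ) • e))
          + ((1 / 2 : ℂ) • (1 : H →L[ℂ] H) - (m - (1 / 2 : ℂ) • e)) := by
      module
    rw [e1]
    exact add_nonneg hb' hb'

lemma nt_re_inner_nonneg {b : H →L[ℂ] H} (hb : 0 ≤ b) (w : H) :
    0 ≤ (⟪w, b w⟫_ℂ).re := by
  have h1 : b.IsPositive := (ContinuousLinearMap.nonneg_iff_isPositive b).mp hb
  exact h1.re_inner_nonneg_right w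

lemma nt_re_inner_mono {a b : H →L[ℂ] H} (hab : a ≤ b) (w : H) :
    (⟪w, a w⟫_ℂ).re ≤ (⟪w, b w⟫_ℂ).re := by
  have h := nt_re_inner_nonneg (sub_nonneg.2 hab) w
  rw [sub_apply, inner_sub_right, Complex.sub_re] at h
  linarith

lemma nt_conj_le_conj {a b p : H →L[ℂ] H} (hab : a ≤ b) (hp : IsSelfAdjoint p) :
    p * a * p ≤ p * b * p := by
  rw [← sub_nonneg]
  have e : p * b * p - p * a * p = p * (b - a) * p := by noncomm_ring
  rw [e]
  exact IsSelfAdjoint.conjugate_nonneg (sub_nonneg.2 hab) hp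

/-
PROOF SKETCH (subtask).  Take `q` from `exists_half_cut`.  For `ξ ∈ F`: `‖(1 - q) ξ‖^2 = re ⟪ξ, (1 - q) ξ⟫ ≤ 2 re ⟪ξ, (1 - m) ξ⟫ ≤ δ₀^2 / 2 < δ₀^2`
(`proj_inner_self`; `a ≤ b` gives `re ⟪ξ, a ξ⟫ ≤ re ⟪ξ, b ξ⟫`, see `re_inner_nonneg_of_nonneg` in VN/Cut.lean).
Unfold `hT`: `T = ∑ j, g j * m * g j` with `IsPart A g 1` over a fintype `J`; reindex by `Fintype.equivFin J` to get an `IsPartitionIn A f`.
`hnt` gives `i` with `κ₀ < ‖q * f i * q‖ = ‖f i * q * f i‖` (`norm_compress_swap`).  Now `0 ≤ f i q f i ≤ 2 f i m f i` (conjugate the inequality `q ≤ 2 m`),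
`f i m f i = f i T f i ≤ t f i` (orthogonality of the pieces; conjugate `T ≤ t`), so `κ₀ < 2 ‖f i m f i‖` by
`CStarAlgebra.norm_le_norm_of_nonneg_of_le`.  Finally `t ≥ 0`: `f i ≠ 0`, pick `v` with `f i v ≠ 0`; `0 ≤ re ⟪w, f i m f i w⟫ ≤ t ‖f i w‖^2`.
Then `‖f i m f i‖ ≤ ‖t f i‖ ≤ t`.
-/
lemma pinch_lower (hM : IsVN M) {F : Finset H} {δ₀ κ₀ : ℝ} (hδ₀ : 0 < δ₀) (hκ₀ : 0 < κ₀)
    (hnt : ∀ (q : H →L[ℂ] H) (n : ℕ) (f : Fin n → (H →L[ℂ] H)), q ∈ M → IsStarProjection q →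
      IsPartitionIn A f → (∀ ξ ∈ F, ‖(1 - q) ξ‖ < δ₀) → ∃ i, κ₀ < ‖q * f i * q‖)
    {m : H →L[ℂ] H} (hmM : m ∈ M) (h0 : 0 ≤ m) (h1 : m ≤ 1)
    (hmF : ∀ ξ ∈ F, (⟪ξ, (1 - m) ξ⟫_ℂ).re ≤ δ₀ ^ 2 / 4)
    {T : H →L[ℂ] H} (hT : IsPinch A m T) {t : ℝ} (hTt : T ≤ (t : ℂ) • (1 : H →L[ℂ] H)) :
    κ₀ < 2 * t := by
  classical
  obtain ⟨q, hqM, hqp, hq1, hq2⟩ := exists_half_cut hM hmM h0 h1
  have hclose : ∀ ξ ∈ F, ‖(1 - q) ξ‖ < δ₀ := by
    intro ξ hξ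
    have e1 := proj_inner_self hqp.one_sub ξ
    have e2 := nt_re_inner_mono hq2 ξ
    rw [e1, Complex.ofReal_re, smul_apply, inner_smul_right] at e2
    have e3 : ((2 : ℂ) * ⟪ξ, (1 - m) ξ⟫_ℂ).re = 2 * (⟪ξ, (1 - m) ξ⟫_ℂ).re := by
      simp [Complex.mul_re]
    rw [e3] at e2
    have e4 := hmF ξ hξ
    have e5 : ‖(1 - q) ξ‖ ^ 2 < δ₀ ^ 2 := by nlinarith
    exact lt_of_pow_lt_pow_left₀ 2 hδ₀.le e5
  obtain ⟨J, hJ, g, hg, rfl⟩ := hT
  let eJ := Fintype.equivFin J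
  have hf : IsPartitionIn A (fun i => g (eJ.symm i)) := by
    refine ⟨fun i => hg.mem _, fun i => hg.proj _, ?_, ?_⟩
    · intro i j hij
      exact hg.orth _ _ (fun h => hij (eJ.symm.injective h))
    · rw [Equiv.sum_comp eJ.symm g]
      exact hg.sum_eq
  obtain ⟨i, hi⟩ := hnt q _ _ hqM hqp hf hclose
  obtain ⟨p, hp⟩ : ∃ p, p = g (eJ.symm i) := ⟨_, rfl⟩
  simp only [← hp] at hi
  have hpp : IsStarProjection p := hp ▸ hg.proj _
  rw [← norm_compress_swap hqp hpp] at hi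
  have hq0 : 0 ≤ q := hqp.nonneg
  have hpqp0 : 0 ≤ p * q * p := IsSelfAdjoint.conjugate_nonneg hq0 hpp.isSelfAdjoint
  -- compress the pinching
  have hcomp : p * (∑ j, g j * m * g j) * p = p * m * p := by
    rw [Finset.mul_sum, Finset.sum_mul, Finset.sum_eq_single (eJ.symm i)]
    · rw [← hp]
      have := hpp.isIdempotentElem.eq
      calc p * (p * m * p) * p = (p * p) * m * (p * p) := by noncomm_ring
        _ = p * m * p := by rw [this]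
    · intro j _ hj
      have h3 : p * g j = 0 := by
        rw [hp]
        exact hg.orth _ _ (fun h => hj h.symm)
      calc p * (g j * m * g j) * p = (p * g j) * m * g j * p := by noncomm_ring
        _ = 0 := by rw [h3]; simp
    · intro h
      exact absurd (Finset.mem_univ _) h
  have h2 : p * q * p ≤ ((2 * t : ℝ) : ℂ) • p := by
    calc p * q * p ≤ p * ((2 : ℂ) • m) * p := nt_conj_le_conj hq1 hpp.isSelfAdjoint
      _ = (2 : ℂ) • (p * m * p) := by simp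
      _ = (p * (∑ j, g j * m * g j) * p) + (p * (∑ j, g j * m * g j) * p) := by
          rw [hcomp, two_smul]
      _ ≤ (p * ((t : ℂ) • (1 : H →L[ℂ] H)) * p) + (p * ((t : ℂ) • (1 : H →L[ℂ] H)) * p) :=
          add_le_add (nt_conj_le_conj hTt hpp.isSelfAdjoint) (nt_conj_le_conj hTt hpp.isSelfAdjoint)
      _ = ((2 * t : ℝ) : ℂ) • p := by
          have e : p * ((t : ℂ) • (1 : H →L[ℂ] H)) * p = (t : ℂ) • p := by
            rw [mul_smul_comm, mul_one, smul_mul_assoc, hpp.isIdempotentElem.eq]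
          rw [e, ← add_smul]
          congr 1
          push_cast
          ring
  have hb0 : 0 ≤ ((2 * t : ℝ) : ℂ) • p := hpqp0.trans h2
  have ht0 : 0 ≤ t := by
    by_contra hneg
    have hneg' : t < 0 := not_le.1 hneg
    have hpz : p = 0 := by
      ext w
      have e1 := nt_re_inner_nonneg hb0 w
      rw [smul_apply, inner_smul_right, proj_inner_self hpp w] at e1
      have e2 : (((2 * t : ℝ) : ℂ) * ((‖p w‖ ^ 2 : ℝ) : ℂ)).re = 2 * t * ‖p w‖ ^ 2 := by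
        rw [← Complex.ofReal_mul, Complex.ofReal_re]
      rw [e2] at e1
      have e3 : ‖p w‖ ^ 2 ≤ 0 := by nlinarith [sq_nonneg ‖p w‖]
      have e4 : ‖p w‖ = 0 := by nlinarith [norm_nonneg (p w), sq_nonneg ‖p w‖]
      simpa using e4
    rw [hpz] at hi
    simp at hi
    linarith
  have hnorm : ‖p * q * p‖ ≤ ‖((2 * t : ℝ) : ℂ) • p‖ :=
    CStarAlgebra.norm_le_norm_of_nonneg_of_le hpqp0 h2
  have hpn : ‖p‖ ≤ 1 := by
    apply ContinuousLinearMap.opNorm_le_bound _ zero_le_one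
    intro v
    rw [one_mul]
    exact proj_norm_apply_le hpp v
  have hn2 : ‖((2 * t : ℝ) : ℂ) • p‖ ≤ 2 * t := by
    rw [norm_smul, Complex.norm_real, Real.norm_eq_abs, abs_of_nonneg (by linarith)]
    nlinarith [norm_nonneg p]
  linarith

end Vale.Agent.P078
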