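import Vale.Agent.P078.VN.Pinch

/-!
# P078: iterated pinchings as positive unital bimodule maps
-/

namespace Vale.Agent.P078

open scoped InnerProductSpace

variable {H : Type*} [NormedAddCommGroup H] [InnerProductSpace ℂ H] [CompleteSpace H]
variable {A : StarSubalgebra ℂ (H →L[ℂ] H)}

lemma pinchList_cons (y e : H →L[ℂ] H) (l : List (H →L[ℂ] H)) :
    pinchList y (e :: l) = e * pinchList y l * e + (1 - e) * pinchList y l * (1 - e) := rfl

lemma pinchList_add (y y' : H →L[ℂ] H) (l : List (H →L[ℂ] H)) :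
    pinchList (y + y') l = pinchList y l + pinchList y' l := by
  induction l with
  | nil => rfl
  | cons e l ih =>
    rw [pinchList_cons, pinchList_cons, pinchList_cons, ih]
    simp only [mul_add, add_mul]
    abel

lemma pinchList_smul (c : ℂ) (y : H →L[ℂ] H) (l : List (H →L[ℂ] H)) :
    pinchList (c • y) l = c • pinchList y l := by
  induction l with
  | nil => rfl
  | cons e l ih =>
    rw [pinchList_cons, pinchList_cons, ih]
    simp only [mul_smul_comm, smul_mul_assoc, smul_add]

lemma pinchList_sub (y y' : H →L[ℂ] H) (l : List (H →L[ℂ] H)) :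
    pinchList (y - y') l = pinchList y l - pinchList y' l := by
  have h : y - y' = y + (-1 : ℂ) • y' := by
    rw [neg_one_smul, sub_eq_add_neg]
  rw [h, pinchList_add, pinchList_smul, neg_one_smul, sub_eq_add_neg]

lemma pinchList_one (l : List (H →L[ℂ] H)) (hl : ∀ e ∈ l, IsStarProjection e) :
    pinchList 1 l = 1 := by
  induction l with
  | nil => rfl
  | cons e l ih =>
    have hee : e * e = e := (hl e List.mem_cons_self).isIdempotentElem.eq
    rw [pinchList_cons, ih fun e' he' => hl e' (List.mem_cons_of_mem _ he')]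
    rw [mul_one, mul_one, hee, mul_sub, sub_mul, sub_mul, mul_one, one_mul, mul_one, hee]
    abel

lemma pinchList_nonneg {y : H →L[ℂ] H} (hy : 0 ≤ y) (l : List (H →L[ℂ] H))
    (hl : ∀ e ∈ l, IsStarProjection e) : 0 ≤ pinchList y l := by
  induction l with
  | nil => exact hy
  | cons e l ih =>
    have he := hl e List.mem_cons_self
    have ih' := ih fun e' he' => hl e' (List.mem_cons_of_mem _ he')
    rw [pinchList_cons]
    have h1 : IsSelfAdjoint e := he.isSelfAdjoint
    have h2 : IsSelfAdjoint (1 - e) := (IsSelfAdjoint.one _).sub h1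
    exact add_nonneg (h1.conjugate_nonneg ih') (h2.conjugate_nonneg ih')

lemma pinchList_bimod (hcomm : ∀ a ∈ A, ∀ b ∈ A, a * b = b * a) {a b : H →L[ℂ] H} (ha : a ∈ A)
    (hb : b ∈ A) (y : H →L[ℂ] H) (l : List (H →L[ℂ] H)) (hl : ∀ e ∈ l, e ∈ A) :
    pinchList (a * y * b) l = a * pinchList y l * b := by
  induction l with
  | nil => rfl
  | cons e l ih =>
    have he := hl e List.mem_cons_self
    have ih' := ih fun e' he' => hl e' (List.mem_cons_of_mem _ he')
    rw [pinchList_cons, pinchList_cons, ih']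
    set T := pinchList y l with hT
    have c1 : e * a = a * e := hcomm _ he _ ha
    have c2 : b * e = e * b := hcomm _ hb _ he
    have c3 : (1 - e) * a = a * (1 - e) := hcomm _ (sub_mem (one_mem A) he) _ ha
    have c4 : b * (1 - e) = (1 - e) * b := hcomm _ hb _ (sub_mem (one_mem A) he)
    rw [mul_add, add_mul]
    congr 1
    · calc e * (a * T * b) * e = (e * a) * T * (b * e) := by simp only [mul_assoc]
        _ = a * (e * T * e) * b := by rw [c1, c2]; simp only [mul_assoc]
    · calc (1 - e) * (a * T * b) * (1 - e) = ((1 - e) * a) * T * (b * (1 - e)) := by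
            simp only [mul_assoc]
        _ = a * ((1 - e) * T * (1 - e)) * b := by rw [c3, c4]; simp only [mul_assoc]

lemma pinchList_conj (hcomm : ∀ a ∈ A, ∀ b ∈ A, a * b = b * a) (y : H →L[ℂ] H)
    (l : List (H →L[ℂ] H)) (hl : ∀ e ∈ l, e ∈ A ∧ IsStarProjection e) {e : H →L[ℂ] H}
    (he : e ∈ l) :
    pinchList (((2 : ℂ) • e - 1) * y * ((2 : ℂ) • e - 1)) l = pinchList y l := by
  have heA : e ∈ A := (hl e he).1
  have hee : e * e = e := (hl e he).2.isIdempotentElem.eq
  have hu : (2 : ℂ) • e - 1 ∈ A := sub_mem (A.smul_mem heA _) (one_mem A)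
  rw [pinchList_bimod hcomm hu hu y l fun e' he' => (hl e' he').1]
  have hc := pinchList_commute hcomm y l hl e he
  set T := pinchList y l with hT
  have h1 : ((2 : ℂ) • e - 1) * T = T * ((2 : ℂ) • e - 1) := by
    rw [sub_mul, mul_sub, smul_mul_assoc, mul_smul_comm, hc, one_mul, mul_one]
  have h2 : ((2 : ℂ) • e - 1) * ((2 : ℂ) • e - 1) = 1 := by
    rw [sub_mul, mul_sub, mul_sub, smul_mul_assoc, mul_smul_comm, hee, one_mul, mul_one, mul_one,
      smul_smul]
    have : ((2 : ℂ) * 2) • e = (2 : ℂ) • e + (2 : ℂ) • e := by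
      rw [← add_smul]; norm_num
    rw [this]
    abel
  rw [h1, mul_assoc, h2, mul_one]

end Vale.Agent.P078
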