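import Vale.Agent.P078.DefsCentral
import Vale.Agent.P078.Proj

/-!
# P078: basic facts on positive functionals on `B(H)`
-/

namespace Vale.Agent.P078

open scoped InnerProductSpace ComplexConjugate

variable {H : Type*} [NormedAddCommGroup H] [InnerProductSpace ℂ H] [CompleteSpace H]

/-- The functional `T ↦ ⟪η, T ζ⟫`. -/
noncomputable def vecFun (η ζ : H) : (H →L[ℂ] H) →L[ℂ] ℂ :=
  (innerSL ℂ η).comp (ContinuousLinearMap.apply ℂ H ζ)

@[simp] lemma vecFun_apply (η ζ : H) (T : H →L[ℂ] H) : vecFun η ζ T = ⟪η, T ζ⟫_ℂ := rfl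

/-- The functional `T ↦ ψ (a T b)`. -/
noncomputable def compFun (ψ : (H →L[ℂ] H) →L[ℂ] ℂ) (a b : H →L[ℂ] H) :
    (H →L[ℂ] H) →L[ℂ] ℂ :=
  ψ.comp (ContinuousLinearMap.mulLeftRight ℂ (H →L[ℂ] H) a b)

@[simp] lemma compFun_apply (ψ : (H →L[ℂ] H) →L[ℂ] ℂ) (a b T : H →L[ℂ] H) :
    compFun ψ a b T = ψ (a * T * b) := rfl

namespace IsPosFunctional

variable {φ : (H →L[ℂ] H) →L[ℂ] ℂ}

/-
PROOF SKETCHES (subtask).
* `apply_sa`: `y + ‖y‖ 1 ≥ 0` and `‖y‖ 1 ≥ 0`, so `φ y` is a difference of two reals.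
* `map_star`: write `T = Re T + i Im T` (`realPart_add_I_smul_imaginaryPart`).
* `re_mono`: apply positivity to `y' - y`.
* `cauchy_schwarz`: the form `(a, b) ↦ φ (star b * a)` is positive semidefinite; the usual proof: for all complex `t`,
  `0 ≤ φ (star (a + t b) (a + t b))`; or build `PreInnerProductSpace.Core` / use `inner_mul_inner_self_le`.
* `norm_le`: Cauchy-Schwarz with `b = 1` and `star T * T ≤ ‖T‖^2 1` (`CStarAlgebra.star_mul_le_algebraMap_norm_sq` or similar).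
-/

lemma apply_sa (h : IsPosFunctional φ) {y : H →L[ℂ] H} (hy : IsSelfAdjoint y) : (φ y).im = 0 := by
  have h1 : 0 ≤ y + algebraMap ℝ (H →L[ℂ] H) ‖y‖ := by
    have := hy.neg_algebraMap_norm_le_self
    exact neg_le_iff_add_nonneg.1 this
  have h2 : 0 ≤ algebraMap ℝ (H →L[ℂ] H) ‖y‖ := algebraMap_nonneg _ (norm_nonneg _)
  have e : φ y = φ (y + algebraMap ℝ (H →L[ℂ] H) ‖y‖) - φ (algebraMap ℝ (H →L[ℂ] H) ‖y‖) := by
    rw [map_add, add_sub_cancel_right]
  rw [e, Complex.sub_im, (h _ h1).2, (h _ h2).2, sub_zero]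

lemma map_star (h : IsPosFunctional φ) (T : H →L[ℂ] H) : φ (star T) = conj (φ T) := by
  have ha : (φ (realPart T : H →L[ℂ] H)).im = 0 := h.apply_sa (realPart T).2
  have hb : (φ (imaginaryPart T : H →L[ℂ] H)).im = 0 := h.apply_sa (imaginaryPart T).2
  have ha' : conj (φ (realPart T : H →L[ℂ] H)) = φ (realPart T : H →L[ℂ] H) :=
    Complex.conj_eq_iff_im.2 ha
  have hb' : conj (φ (imaginaryPart T : H →L[ℂ] H)) = φ (imaginaryPart T : H →L[ℂ] H) :=
    Complex.conj_eq_iff_im.2 hb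
  have e1 : T = (realPart T : H →L[ℂ] H) + Complex.I • (imaginaryPart T : H →L[ℂ] H) :=
    (realPart_add_I_smul_imaginaryPart T).symm
  have e2 : star T = (realPart T : H →L[ℂ] H) - Complex.I • (imaginaryPart T : H →L[ℂ] H) := by
    conv_lhs => rw [e1]
    rw [star_add, star_smul, (realPart T).2.star_eq, (imaginaryPart T).2.star_eq]
    simp [sub_eq_add_neg]
  rw [e2]
  conv_rhs => rw [e1]
  rw [map_sub, map_add, map_smul, map_add, smul_eq_mul, map_mul, ha', hb', Complex.conj_I]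
  ring

lemma re_mono (h : IsPosFunctional φ) {y y' : H →L[ℂ] H} (hyy' : y ≤ y') :
    (φ y).re ≤ (φ y').re := by
  have := (h (y' - y) (sub_nonneg.2 hyy')).1
  rw [map_sub, Complex.sub_re] at this
  linarith

lemma cauchy_schwarz (h : IsPosFunctional φ) (a b : H →L[ℂ] H) :
    ‖φ (star b * a)‖ ^ 2 ≤ (φ (star a * a)).re * (φ (star b * b)).re := by
  set z : ℂ := φ (star b * a) with hz
  set A : ℝ := (φ (star a * a)).re with hA
  set B : ℝ := (φ (star b * b)).re with hB
  have hA0 : 0 ≤ A := (h _ (star_mul_self_nonneg a)).1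
  have hB0 : 0 ≤ B := (h _ (star_mul_self_nonneg b)).1
  have hz' : φ (star a * b) = conj z := by
    rw [hz, ← h.map_star, star_mul, star_star]
  have key : ∀ s : ℝ, 0 ≤ (‖z‖ ^ 2 * B) * (s * s) + (-(2 * ‖z‖ ^ 2)) * s + A := by
    intro s
    have h1 := (h _ (star_mul_self_nonneg (a + (-(s : ℂ) * z) • b))).1
    have e : star (a + (-(s : ℂ) * z) • b) * (a + (-(s : ℂ) * z) • b)
        = star a * a + (-(s : ℂ) * z) • (star a * b) + (conj (-(s : ℂ) * z)) • (star b * a)
          + (conj (-(s : ℂ) * z) * (-(s : ℂ) * z)) • (star b * b) := by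
      rw [star_add, star_smul, add_mul, mul_add, mul_add, smul_mul_assoc, mul_smul_comm,
        smul_mul_assoc, mul_smul_comm, smul_smul]
      simp only [starRingEnd_apply]
      abel
    rw [e, map_add, map_add, map_add, map_smul, map_smul, map_smul, hz', ← hz] at h1
    have hbb : φ (star b * b) = (B : ℂ) := by
      apply Complex.ext
      · simp [hB]
      · simpa using (h _ (star_mul_self_nonneg b)).2
    rw [hbb] at h1
    have e2 : (φ (star a * a) + (-(s : ℂ) * z) • conj z + (conj (-(s : ℂ) * z)) • z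
        + (conj (-(s : ℂ) * z) * (-(s : ℂ) * z)) • (B : ℂ)).re
        = (‖z‖ ^ 2 * B) * (s * s) + (-(2 * ‖z‖ ^ 2)) * s + A := by
      have hn : ‖z‖ ^ 2 = z.re * z.re + z.im * z.im := by
        rw [← Complex.normSq_eq_norm_sq, Complex.normSq_apply]
      rw [hn, hA]
      simp only [smul_eq_mul, map_mul, map_neg, Complex.conj_ofReal, Complex.add_re,
        Complex.mul_re, Complex.neg_re, Complex.ofReal_re, Complex.neg_im, Complex.ofReal_im,
        Complex.conj_re, Complex.conj_im, Complex.mul_im]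
      ring
    rw [e2] at h1
    exact h1
  have hd := discrim_le_zero key
  rw [discrim] at hd
  rcases eq_or_lt_of_le (sq_nonneg ‖z‖) with h0 | h0
  · rw [← h0]
    positivity
  · have : ‖z‖ ^ 2 * (‖z‖ ^ 2 - A * B) ≤ 0 := by nlinarith
    have h3 : ‖z‖ ^ 2 - A * B ≤ 0 := by
      by_contra hcon
      have := mul_pos h0 (not_le.1 hcon)
      linarith
    linarith

lemma norm_le (h : IsPosFunctional φ) (T : H →L[ℂ] H) : ‖φ T‖ ≤ (φ 1).re * ‖T‖ := by
  have h1 := h.cauchy_schwarz T 1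
  rw [star_one, one_mul, one_mul] at h1
  have h10 : 0 ≤ (φ 1).re := (h 1 zero_le_one).1
  have h2 : (φ (star T * T)).re ≤ ‖T‖ ^ 2 * (φ 1).re := by
    have h3 := h.re_mono (CStarAlgebra.star_mul_le_algebraMap_norm_sq (a := T))
    have e : algebraMap ℝ (H →L[ℂ] H) (‖T‖ ^ 2) = ((‖T‖ ^ 2 : ℝ) : ℂ) • (1 : H →L[ℂ] H) := by
      rw [Algebra.algebraMap_eq_smul_one]
      exact (Complex.coe_smul _ _).symm
    rw [e, map_smul, smul_eq_mul, Complex.re_ofReal_mul] at h3
    exact h3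
  have h4 : ‖φ T‖ ^ 2 ≤ ((φ 1).re * ‖T‖) ^ 2 := by
    calc ‖φ T‖ ^ 2 ≤ (φ (star T * T)).re * (φ 1).re := h1
      _ ≤ (‖T‖ ^ 2 * (φ 1).re) * (φ 1).re := mul_le_mul_of_nonneg_right h2 h10
      _ = ((φ 1).re * ‖T‖) ^ 2 := by ring
  exact (pow_le_pow_iff_left₀ (norm_nonneg _) (mul_nonneg h10 (norm_nonneg _)) two_ne_zero).1 h4

lemma compFun_pos (h : IsPosFunctional φ) (a : H →L[ℂ] H) :
    IsPosFunctional (compFun φ (star a) a) := by
  intro y hy
  rw [compFun_apply]
  exact h _ (star_left_conjugate_nonneg hy a)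

end IsPosFunctional

lemma vecFun_pos (η : H) : IsPosFunctional (vecFun η η) := by
  intro y hy
  rw [vecFun_apply]
  have := ((ContinuousLinearMap.nonneg_iff_isPositive y).1 hy).inner_nonneg_right η
  rw [Complex.nonneg_iff] at this
  exact ⟨this.1, this.2.symm⟩

end Vale.Agent.P078
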