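import Vale.Agent.P078.NP.PinchMap
import Vale.Agent.P078.NP.HahnBanach
import Vale.Agent.P078.NP.NotThin
import Vale.Agent.P078.NP.CentralPart

/-!
# P078: if `A` is not thin in `M` there is an `A`-central state that is not singular
-/

namespace Vale.Agent.P078

open scoped InnerProductSpace

variable {H : Type*} [NormedAddCommGroup H] [InnerProductSpace ℂ H] [CompleteSpace H]
variable {M A : StarSubalgebra ℂ (H →L[ℂ] H)}

/-- The convex set of almost-units of `M`. -/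
def almostUnits (M : StarSubalgebra ℂ (H →L[ℂ] H)) (F : Finset H) (d : ℝ) : Set (H →L[ℂ] H) :=
  {m | m ∈ M ∧ 0 ≤ m ∧ m ≤ 1 ∧ ∀ ξ ∈ F, (⟪ξ, (1 - m) ξ⟫_ℂ).re ≤ d}

lemma convex_almostUnits (M : StarSubalgebra ℂ (H →L[ℂ] H)) (F : Finset H) (d : ℝ) :
    Convex ℝ (almostUnits M F d) := by
  intro m hm m' hm' a b ha hb hab
  refine ⟨?_, ?_, ?_, ?_⟩
  · rw [← Complex.coe_smul a m, ← Complex.coe_smul b m']
    exact M.add_mem (M.smul_mem hm.1 _) (M.smul_mem hm'.1 _)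
  · exact add_nonneg (smul_nonneg ha hm.2.1) (smul_nonneg hb hm'.2.1)
  · calc a • m + b • m' ≤ a • (1 : H →L[ℂ] H) + b • (1 : H →L[ℂ] H) :=
          add_le_add (smul_le_smul_of_nonneg_left hm.2.2.1 ha)
            (smul_le_smul_of_nonneg_left hm'.2.2.1 hb)
      _ = 1 := by rw [← add_smul, hab, one_smul]
  · intro ξ hξ
    have e : (1 : H →L[ℂ] H) - (a • m + b • m') = a • (1 - m) + b • (1 - m') := by
      rw [smul_sub, smul_sub]
      have : (1 : H →L[ℂ] H) = a • (1 : H →L[ℂ] H) + b • (1 : H →L[ℂ] H) := by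
        rw [← add_smul, hab, one_smul]
      nth_rewrite 1 [this]
      abel
    rw [e]
    have h1 := hm.2.2.2 ξ hξ
    have h2 := hm'.2.2.2 ξ hξ
    have e2 : (⟪ξ, (a • (1 - m) + b • (1 - m')) ξ⟫_ℂ).re
        = a * (⟪ξ, (1 - m) ξ⟫_ℂ).re + b * (⟪ξ, (1 - m') ξ⟫_ℂ).re := by
      rw [add_apply, inner_add_right, smul_apply,
        smul_apply, ← Complex.coe_smul a, ← Complex.coe_smul b,
        inner_smul_right, inner_smul_right]
      simp only [Complex.add_re, Complex.mul_re, Complex.ofReal_re, Complex.ofReal_im, zero_mul,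
        sub_zero]
    rw [e2]
    calc a * (⟪ξ, (1 - m) ξ⟫_ℂ).re + b * (⟪ξ, (1 - m') ξ⟫_ℂ).re ≤ a * d + b * d := by
          gcongr
      _ = d := by rw [← add_mul, hab, one_mul]

lemma one_mem_almostUnits (M : StarSubalgebra ℂ (H →L[ℂ] H)) (F : Finset H) {d : ℝ} (hd : 0 ≤ d) :
    (1 : H →L[ℂ] H) ∈ almostUnits M F d := by
  refine ⟨one_mem M, zero_le_one, le_refl _, ?_⟩
  intro ξ _
  simpa using hd

lemma proj_mem_almostUnits {F : Finset H} {δ : ℝ} {q : H →L[ℂ] H} (hq : q ∈ M)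
    (hqp : IsStarProjection q) (hF : ∀ ξ ∈ F, ‖(1 - q) ξ‖ < δ) :
    q ∈ almostUnits M F (δ ^ 2) := by
  refine ⟨hq, hqp.nonneg, hqp.le_one, ?_⟩
  intro ξ hξ
  rw [proj_inner_self hqp.one_sub]
  have := hF ξ hξ
  rw [Complex.ofReal_re]
  gcongr

/-- The projections of `A`. -/
abbrev ProjOf (A : StarSubalgebra ℂ (H →L[ℂ] H)) : Type _ :=
  {e : H →L[ℂ] H // e ∈ A ∧ IsStarProjection e}

/-- Pinching along a finite set of projections of `A`. -/
noncomputable def pinchFin (S : Finset (ProjOf A)) (y : H →L[ℂ] H) : H →L[ℂ] H :=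
  pinchList y (S.toList.map Subtype.val)

lemma pinchFin_list (S : Finset (ProjOf A)) :
    ∀ e ∈ S.toList.map Subtype.val, e ∈ A ∧ IsStarProjection e := by
  intro e he
  rw [List.mem_map] at he
  obtain ⟨e', _, rfl⟩ := he
  exact e'.2

/-- Self-adjoint operators killed by all sufficiently fine pinchings. -/
def pinchNull (A : StarSubalgebra ℂ (H →L[ℂ] H)) : Set (H →L[ℂ] H) :=
  {y | IsSelfAdjoint y ∧ ∃ S₀ : Finset (ProjOf A), ∀ S, S₀ ⊆ S → pinchFin S y = 0}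

lemma zero_mem_pinchNull : (0 : H →L[ℂ] H) ∈ pinchNull A := by
  refine ⟨IsSelfAdjoint.zero _, ∅, ?_⟩
  intro S _
  have := pinchList_sub (0 : H →L[ℂ] H) 0 (S.toList.map Subtype.val)
  rw [sub_self, sub_self] at this
  exact this

lemma add_mem_pinchNull {y y' : H →L[ℂ] H} (hy : y ∈ pinchNull A) (hy' : y' ∈ pinchNull A) :
    y + y' ∈ pinchNull A := by
  classical
  obtain ⟨h1, S₁, hS₁⟩ := hy
  obtain ⟨h2, S₂, hS₂⟩ := hy'
  refine ⟨h1.add h2, S₁ ∪ S₂, ?_⟩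
  intro S hS
  have a1 := hS₁ S (Finset.union_subset_left hS)
  have a2 := hS₂ S (Finset.union_subset_right hS)
  unfold pinchFin at a1 a2 ⊢
  rw [pinchList_add, a1, a2, add_zero]

lemma smul_mem_pinchNull (t : ℝ) {y : H →L[ℂ] H} (hy : y ∈ pinchNull A) :
    (t : ℂ) • y ∈ pinchNull A := by
  obtain ⟨h1, S₁, hS₁⟩ := hy
  have ht : IsSelfAdjoint (t : ℂ) := Complex.conj_ofReal t
  refine ⟨ht.smul h1, S₁, ?_⟩
  intro S hS
  have a1 := hS₁ S hS
  unfold pinchFin at a1 ⊢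
  rw [pinchList_smul, a1, smul_zero]

lemma stSymm_sa {e : H →L[ℂ] H} (hep : IsStarProjection e) :
    star ((2 : ℂ) • e - 1) = (2 : ℂ) • e - 1 := by
  rw [star_sub, star_smul, star_one, hep.isSelfAdjoint.star_eq]
  congr 2
  exact Complex.conj_ofReal 2

lemma stSymm_mul_self {e : H →L[ℂ] H} (hep : IsStarProjection e) :
    ((2 : ℂ) • e - 1) * ((2 : ℂ) • e - 1) = 1 := by
  have hee : e * e = e := hep.isIdempotentElem.eq
  rw [sub_mul, mul_sub, smul_mul_smul_comm, hee, mul_one, one_mul]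
  have : ((2 : ℂ) * 2) • e = (2 : ℂ) • e + (2 : ℂ) • e := by
    rw [← add_smul]; norm_num
  rw [this]
  abel

lemma conj_sub_mem_pinchNull (hcomm : ∀ a ∈ A, ∀ b ∈ A, a * b = b * a) {e : H →L[ℂ] H}
    (he : e ∈ A) (hep : IsStarProjection e) {T : H →L[ℂ] H} (hT : IsSelfAdjoint T) :
    ((2 : ℂ) • e - 1) * T * ((2 : ℂ) • e - 1) - T ∈ pinchNull A := by
  classical
  have hu := stSymm_sa hep
  refine ⟨?_, {⟨e, he, hep⟩}, ?_⟩
  · unfold IsSelfAdjoint
    rw [star_sub, star_mul, star_mul, hu, hT.star_eq, mul_assoc]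
  · intro S hS
    unfold pinchFin
    rw [pinchList_sub, pinchList_conj hcomm T _ (pinchFin_list S), sub_self]
    rw [List.mem_map]
    exact ⟨⟨e, he, hep⟩, Finset.mem_toList.mpr (hS (Finset.mem_singleton_self _)), rfl⟩

lemma half_aux (t : ℝ) (P : H →L[ℂ] H) :
    (1 / 2 : ℝ) • (((2 * t : ℝ) : ℂ) • (1 : H →L[ℂ] H) - (P + P)) = (t : ℂ) • 1 - P := by
  rw [← Complex.coe_smul, smul_sub, smul_smul, ← two_smul ℂ P, smul_smul]
  congr 1
  · congr 1
    push_cast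
    ring
  · have : (((1 / 2 : ℝ) : ℂ) * 2) = 1 := by
      push_cast
      norm_num
    rw [this, one_smul]

lemma sep_aux (hM : IsVN M) (hA : IsMASA M A) {F : Finset H} {δ₀ κ₀ : ℝ} (hδ₀ : 0 < δ₀)
    (hκ₀ : 0 < κ₀)
    (hnt : ∀ (q : H →L[ℂ] H) (n : ℕ) (f : Fin n → (H →L[ℂ] H)), q ∈ M → IsStarProjection q →
      IsPartitionIn A f → (∀ ξ ∈ F, ‖(1 - q) ξ‖ < δ₀) → ∃ i, κ₀ < ‖q * f i * q‖)
    {m y : H →L[ℂ] H} (hm : m ∈ almostUnits M F (δ₀ ^ 2 / 4)) (hy : y ∈ pinchNull A) {c : ℝ}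
    (hc : 0 < c) :
    ¬ ((m + y) + star (m + y) ≤ ((2 * (κ₀ / 2 - c) : ℝ) : ℂ) • (1 : H →L[ℂ] H)) := by
  intro hle
  obtain ⟨hysa, S₀, hS₀⟩ := hy
  have hmsa : IsSelfAdjoint m := IsSelfAdjoint.of_nonneg hm.2.1
  rw [(hmsa.add hysa).star_eq] at hle
  have h0 : 0 ≤ ((2 * (κ₀ / 2 - c) : ℝ) : ℂ) • (1 : H →L[ℂ] H) - ((m + y) + (m + y)) :=
    sub_nonneg.mpr hle
  have hl : ∀ e ∈ S₀.toList.map Subtype.val, IsStarProjection e :=
    fun e he => (pinchFin_list S₀ e he).2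
  have h1 := pinchList_nonneg h0 (S₀.toList.map Subtype.val) hl
  have hy0 : pinchList y (S₀.toList.map Subtype.val) = 0 := hS₀ S₀ (Finset.Subset.refl _)
  rw [pinchList_sub, pinchList_smul, pinchList_one _ hl, pinchList_add, pinchList_add, hy0,
    add_zero] at h1
  have h2 : pinchList m (S₀.toList.map Subtype.val)
      ≤ ((κ₀ / 2 - c : ℝ) : ℂ) • (1 : H →L[ℂ] H) := by
    have h3 := smul_nonneg (show (0 : ℝ) ≤ 1 / 2 by norm_num) h1
    rw [half_aux] at h3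
    exact sub_nonneg.mp h3
  have h4 := pinch_lower hM hδ₀ hκ₀ hnt hm.1 hm.2.1 hm.2.2.1 hm.2.2.2
    (pinchList_isPinch hA.comm m _ (pinchFin_list S₀)) h2
  linarith

lemma central_aux (hcomm : ∀ a ∈ A, ∀ b ∈ A, a * b = b * a) {ψ : (H →L[ℂ] H) →L[ℂ] ℂ}
    (hψ : IsPosFunctional ψ) (hY : ∀ y ∈ pinchNull A, (ψ y).re = 0) {e : H →L[ℂ] H}
    (he : e ∈ A) (hep : IsStarProjection e) (m : H →L[ℂ] H) : ψ (e * m) = ψ (m * e) := by
  have huu := stSymm_mul_self hep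
  set u : H →L[ℂ] H := (2 : ℂ) • e - 1 with hu
  have h1 : ∀ T : H →L[ℂ] H, IsSelfAdjoint T → ψ (u * T * u) = ψ T := by
    intro T hT
    have hmem := conj_sub_mem_pinchNull hcomm he hep hT
    have re0 := hY _ hmem
    have im0 := hψ.apply_sa hmem.1
    have h0 : ψ (u * T * u - T) = 0 := Complex.ext re0 im0
    rwa [map_sub, sub_eq_zero] at h0
  have h2 : ∀ T : H →L[ℂ] H, ψ (u * T * u) = ψ T := by
    intro T
    have hT := realPart_add_I_smul_imaginaryPart T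
    have ha : IsSelfAdjoint ((realPart T : selfAdjoint (H →L[ℂ] H)) : H →L[ℂ] H) := (realPart T).2
    have hb : IsSelfAdjoint ((imaginaryPart T : selfAdjoint (H →L[ℂ] H)) : H →L[ℂ] H) :=
      (imaginaryPart T).2
    rw [← hT, mul_add, add_mul, mul_smul_comm, smul_mul_assoc, map_add, map_add, map_smul,
      map_smul, h1 _ ha, h1 _ hb]
  have h3 : ψ (u * m) = ψ (m * u) := by
    have h4 := h2 (m * u)
    have h5 : u * (m * u) * u = u * m := by
      calc u * (m * u) * u = u * m * (u * u) := by simp only [mul_assoc]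
        _ = u * m := by rw [huu, mul_one]
    rwa [h5] at h4
  rw [hu, sub_mul, mul_sub, smul_mul_assoc, mul_smul_comm, one_mul, mul_one, map_sub, map_sub,
    map_smul, map_smul] at h3
  have h6 : (2 : ℂ) • ψ (e * m) = (2 : ℂ) • ψ (m * e) := sub_left_injective h3
  exact smul_right_injective ℂ (two_ne_zero) h6

theorem exists_state_of_not_thin (hM : IsVN M) (hA : IsMASA M A) (hnt : ¬ IsThin M A) :
    ∃ (ψ : (H →L[ℂ] H) →L[ℂ] ℂ) (F : Finset H) (δ κ : ℝ), 0 < δ ∧ 0 < κ ∧ IsPosFunctional ψ ∧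
      IsCentralOn M A ψ ∧
      ∀ q ∈ M, IsStarProjection q → (∀ ξ ∈ F, ‖(1 - q) ξ‖ < δ) → κ ≤ (ψ q).re := by
  unfold IsThin at hnt
  push Not at hnt
  obtain ⟨F, δ₀, κ₀, hδ₀, hκ₀, hnt⟩ := hnt
  have hnt' : ∀ (q : H →L[ℂ] H) (n : ℕ) (f : Fin n → (H →L[ℂ] H)), q ∈ M → IsStarProjection q →
      IsPartitionIn A f → (∀ ξ ∈ F, ‖(1 - q) ξ‖ < δ₀) → ∃ i, κ₀ < ‖q * f i * q‖ :=
    fun q n f h1 h2 h3 h4 => hnt q n f ⟨h1, h2⟩ h3 h4
  obtain ⟨ψ, κ, hκ, hψ, hY, hC⟩ := exists_pos_functional_of_sep (almostUnits M F (δ₀ ^ 2 / 4))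
    (pinchNull A) (convex_almostUnits M F _) (one_mem_almostUnits M F (by positivity))
    zero_mem_pinchNull (fun y hy y' hy' => add_mem_pinchNull hy hy')
    (fun t y hy => smul_mem_pinchNull t hy) (half_pos hκ₀)
    (fun m hm y hy c hc => sep_aux hM hA hδ₀ hκ₀ hnt' hm hy hc)
  refine ⟨ψ, F, δ₀ / 2, κ, half_pos hδ₀, hκ, hψ, ?_, ?_⟩
  · exact isCentralOn_of_proj hM hA (fun e he hep m _ => central_aux hA.comm hψ hY he hep m)
  · intro q hq hqp hF
    apply hC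
    have := proj_mem_almostUnits hq hqp hF
    have e : (δ₀ / 2) ^ 2 = δ₀ ^ 2 / 4 := by ring
    rwa [e] at this

end Vale.Agent.P078
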