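import Vale.Agent.P078.NP.State
import Vale.Agent.P078.NP.NormalPart

/-!
# P078: a MASA is thin if and only if there is no nonzero normal central positive functional
-/

namespace Vale.Agent.P078

open scoped InnerProductSpace

variable {H : Type*} [NormedAddCommGroup H] [InnerProductSpace ℂ H] [CompleteSpace H]
variable {M A : StarSubalgebra ℂ (H →L[ℂ] H)}

/-
PROOF SKETCH (subtask).  Let `φ` be positive, central and normal on `M`, `t := (φ 1).re ≥ 0`.  Fix `ε ∈ (0, 1)`.  Normality gives `F, δ`; thinness with `κ := ε` gives `q, f`.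
* `1 - q ∈ M` has norm `≤ 1` and `‖(1 - q) ζ‖ < δ` on `F`, so `‖φ (1 - q)‖ < ε`.
* `q = ∑ i j, f i * q * f j`; for `i ≠ j`: `φ (f i * (q * f j)) = φ ((q * f j) * f i) = 0`.  So `φ q = ∑ i, φ (f i * q * f i)`.
* `0 ≤ f i q f i ≤ ‖f i q f i‖ f i` and `‖f i q f i‖ = ‖q f i q‖ ≤ ε` (`norm_compress_swap`), so `(φ (f i q f i)).re ≤ ε (φ (f i)).re` (`IsPosFunctional.re_mono`) and
  `(φ q).re ≤ ε t`.
Hence `t ≤ ε t + ε` for all small `ε`, so `t = 0`; the imaginary part of `φ 1` vanishes by positivity.
-/
theorem IsThin.noCentralNormal (hAM : A ≤ M) (hT : IsThin M A) : NoCentralNormal M A := by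
  intro φ hφ hφc hφn
  set t : ℝ := (φ 1).re with ht
  have ht0 : 0 ≤ t := (hφ 1 zero_le_one).1
  have him : (φ 1).im = 0 := (hφ 1 zero_le_one).2
  have key : ∀ ε : ℝ, 0 < ε → t ≤ ε * t + ε := by
    intro ε hε
    obtain ⟨F, δ, hδ, hn⟩ := hφn ε hε
    obtain ⟨q, n, f, ⟨hqM, hqp⟩, hf, hqF, hqf⟩ := hT F δ ε hδ hε
    have h1 : ‖φ (1 - q)‖ < ε :=
      hn (1 - q) (sub_mem (one_mem M) hqM) (IsStarProjection.norm_le _ hqp.one_sub) hqF
    have hsum : q = ∑ i, ∑ j, f i * q * f j := by
      calc q = (∑ i, f i) * q * (∑ j, f j) := by rw [hf.sum_eq_one, one_mul, mul_one]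
        _ = ∑ i, ∑ j, f i * q * f j := by
            rw [Finset.sum_mul, Finset.sum_mul]
            apply Finset.sum_congr rfl
            intro i _
            rw [Finset.mul_sum]
    have hoff : ∀ i j, i ≠ j → φ (f i * q * f j) = 0 := by
      intro i j hij
      rw [mul_assoc, hφc _ (hf.mem i) _ (mul_mem hqM (hAM (hf.mem j))), mul_assoc,
        hf.orth j i hij.symm, mul_zero, map_zero]
    have h2 : φ q = ∑ i, φ (f i * q * f i) := by
      conv_lhs => rw [hsum]
      rw [map_sum]
      apply Finset.sum_congr rfl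
      intro i _
      rw [map_sum, Finset.sum_eq_single i]
      · intro j _ hji
        exact hoff i j hji.symm
      · intro h; exact absurd (Finset.mem_univ i) h
    have h3 : ∀ i, (φ (f i * q * f i)).re ≤ ε * (φ (f i)).re := by
      intro i
      have hfsa : IsSelfAdjoint (f i) := (hf.proj i).isSelfAdjoint
      have hq1 : q ≤ 1 := by
        rw [← sub_nonneg]; exact hqp.one_sub.nonneg
      set y := f i * q * f i with hy
      have hy0 : 0 ≤ y := hfsa.conjugate_nonneg hqp.nonneg
      have hyn : ‖y‖ ≤ ε := by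
        rw [hy, norm_compress_swap hqp (hf.proj i)]; exact hqf i
      have hy1 : y ≤ (ε : ℂ) • (1 : H →L[ℂ] H) := by
        have h4 := (IsSelfAdjoint.of_nonneg hy0).le_algebraMap_norm_self
        rw [Algebra.algebraMap_eq_smul_one] at h4
        refine h4.trans ?_
        rw [← sub_nonneg, Complex.coe_smul, ← sub_smul]
        have h5 : (0 : ℝ) ≤ ε - ‖y‖ := by linarith
        exact smul_nonneg h5 zero_le_one
      have hy2 : y = f i * y * f i := by
        rw [hy]
        have hff : f i * f i = f i := (hf.proj i).isIdempotentElem.eq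
        calc f i * q * f i = (f i * f i) * q * (f i * f i) := by rw [hff]
          _ = f i * (f i * q * f i) * f i := by simp only [mul_assoc]
      have hy3 : y ≤ (ε : ℂ) • f i := by
        rw [hy2]
        have h6 := hfsa.conjugate_le_conjugate hy1
        have h7 : f i * ((ε : ℂ) • (1 : H →L[ℂ] H)) * f i = (ε : ℂ) • f i := by
          rw [mul_smul_comm, mul_one, smul_mul_assoc, (hf.proj i).isIdempotentElem.eq]
        rwa [h7] at h6
      have h8 := hφ.re_mono hy3
      rw [map_smul] at h8
      simpa using h8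
    have h4 : (φ q).re ≤ ε * t := by
      rw [h2, Complex.re_sum]
      calc ∑ i, (φ (f i * q * f i)).re ≤ ∑ i, ε * (φ (f i)).re := Finset.sum_le_sum fun i _ => h3 i
        _ = ε * t := by
            rw [← Finset.mul_sum, ← Complex.re_sum, ← map_sum, hf.sum_eq_one]
    have h5 : t = (φ q).re + (φ (1 - q)).re := by
      rw [ht, ← Complex.add_re, ← map_add]
      congr 2
      abel
    have h6 : (φ (1 - q)).re ≤ ‖φ (1 - q)‖ := Complex.re_le_norm _
    linarith
  have ht' : t = 0 := by
    by_contra hne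
    have hpos : 0 < t := lt_of_le_of_ne ht0 (Ne.symm hne)
    have h1 := key (t / (2 * (t + 1))) (by positivity)
    have h2 : t / (2 * (t + 1)) * t + t / (2 * (t + 1)) = t / 2 := by
      field_simp
    rw [h2] at h1
    linarith
  apply Complex.ext
  · simpa using ht'
  · simpa using him

theorem thin_of_noCentralNormal (hM : IsVN M) (hA : IsMASA M A) (h : NoCentralNormal M A) :
    IsThin M A := by
  by_contra hnt
  obtain ⟨ψ, F, δ, κ, hδ, hκ, hψ, hψc, hns⟩ := exists_state_of_not_thin hM hA hnt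
  obtain ⟨φ, hφ, hφn, h1, h2, h3⟩ := exists_normal_part hM hψ
  have hφc : IsCentralOn M A φ := normal_part_central hM hA hψc hφ hφn h1 h2
  obtain ⟨q, hqM, hqp, hqF, hq⟩ := h3 F δ hδ
  have h4 := hns q hqM hqp hqF
  have h5 := h φ hφ hφc hφn
  rw [h5] at hq
  simp at hq
  linarith

theorem thin_iff_noCentralNormal (hM : IsVN M) (hA : IsMASA M A) :
    IsThin M A ↔ NoCentralNormal M A :=
  ⟨fun h => h.noCentralNormal hA.le, thin_of_noCentralNormal hM hA⟩

end Vale.Agent.P078
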